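import Mathlib

/-!
# P267 / H462 (package RRC-GLUE): the algebra of the glued parametrix

`A0 → A1 → A2` is the `∂̄`-complex, `m a` = multiplication by `ρ_a`, `w a` = `∂̄ρ_a ∧`,
`B a` the local homotopies, `T a b` the operators comparing `B a` and `B b`.
-/

namespace Vale.Agent.P267.H462

open Finset

/-- a three term complex with a partition of unity -/
structure PUComplex (ι A0 A1 A2 : Type*) [Fintype ι] [AddCommGroup A0] [Module ℂ A0]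
    [AddCommGroup A1] [Module ℂ A1] [AddCommGroup A2] [Module ℂ A2] where
  d0 : A0 →ₗ[ℂ] A1
  d1 : A1 →ₗ[ℂ] A2
  m0 : ι → A0 →ₗ[ℂ] A0
  m1 : ι → A1 →ₗ[ℂ] A1
  m2 : ι → A2 →ₗ[ℂ] A2
  w0 : ι → A0 →ₗ[ℂ] A1
  w1 : ι → A1 →ₗ[ℂ] A2
  dd : ∀ s, d1 (d0 s) = 0
  sum_m0 : ∀ s, ∑ a, m0 a s = s
  sum_m1 : ∀ s, ∑ a, m1 a s = s
  sum_m2 : ∀ s, ∑ a, m2 a s = s
  sum_w0 : ∀ s, ∑ a, w0 a s = 0
  sum_w1 : ∀ s, ∑ a, w1 a s = 0
  d_m0 : ∀ a s, d0 (m0 a s) = w0 a s + m1 a (d0 s)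
  d_m1 : ∀ a s, d1 (m1 a s) = w1 a s + m2 a (d1 s)
  d_w0 : ∀ a s, d1 (w0 a s) = - w1 a (d0 s)

variable {ι A0 A1 A2 : Type*} [Fintype ι] [AddCommGroup A0] [Module ℂ A0]
    [AddCommGroup A1] [Module ℂ A1] [AddCommGroup A2] [Module ℂ A2]

namespace PUComplex

variable (C : PUComplex ι A0 A1 A2)

/-- local homotopies and comparison operators, with error terms `R`, `E` -/
structure Homot where
  B1 : ι → A1 →ₗ[ℂ] A0
  B2 : ι → A2 →ₗ[ℂ] A1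
  T : ι → ι → A2 →ₗ[ℂ] A0
  R0 : ι → A0 →ₗ[ℂ] A0
  R1 : ι → A1 →ₗ[ℂ] A1
  R2 : ι → A2 →ₗ[ℂ] A2
  E1 : ι → ι → A1 →ₗ[ℂ] A0
  E2 : ι → ι → A2 →ₗ[ℂ] A1
  h0 : ∀ a s, C.m0 a (B1 a (C.d0 s)) = C.m0 a (s - R0 a s)
  h1 : ∀ a u, C.m1 a (C.d0 (B1 a u) + B2 a (C.d1 u)) = C.m1 a (u - R1 a u)
  h2 : ∀ a v, C.m2 a (C.d1 (B2 a v)) = C.m2 a (v - R2 a v)
  t1 : ∀ a b u, C.m1 b (C.w0 a (B1 b u - B1 a u)) =
    C.m1 b (C.w0 a (T a b (C.d1 u) + E1 a b u))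
  t2 : ∀ a b v, C.m2 b (C.w1 a (B2 b v - B2 a v)) =
    C.m2 b (C.w1 a (- C.d0 (T a b v) + E2 a b v))

variable {C} (H : C.Homot)

namespace Homot

/-- the parametrix in degree `1` -/
def P1 : A1 →ₗ[ℂ] A0 := ∑ a, (C.m0 a).comp (H.B1 a)

/-- the parametrix in degree `2` -/
def P2 : A2 →ₗ[ℂ] A1 :=
  ∑ a, (C.m1 a).comp (H.B2 a) + ∑ a, ∑ b, ((C.m1 b).comp (C.w0 a)).comp (H.T a b)

/-- the remainder in degree `0` -/
def S0 : A0 →ₗ[ℂ] A0 := ∑ a, (C.m0 a).comp (H.R0 a)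

/-- the remainder in degree `1` -/
def S1 : A1 →ₗ[ℂ] A1 :=
  ∑ a, (C.m1 a).comp (H.R1 a) + ∑ a, ∑ b, ((C.m1 b).comp (C.w0 a)).comp (H.E1 a b)

/-- the remainder in degree `2` -/
def S2 : A2 →ₗ[ℂ] A2 :=
  ∑ a, (C.m2 a).comp (H.R2 a) + ∑ a, ∑ b, ((C.m2 b).comp (C.w1 a)).comp (H.E2 a b) -
    ∑ a, ∑ b, ∑ c, ((C.m2 c).comp ((C.w1 b).comp (C.w0 a))).comp (H.T a b + H.T b c + H.T c a)

theorem P1_apply (u : A1) : H.P1 u = ∑ a, C.m0 a (H.B1 a u) := by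
  simp [P1]

theorem P2_apply (v : A2) : H.P2 v =
    ∑ a, C.m1 a (H.B2 a v) + ∑ a, ∑ b, C.m1 b (C.w0 a (H.T a b v)) := by
  simp [P2]

theorem S0_apply (s : A0) : H.S0 s = ∑ a, C.m0 a (H.R0 a s) := by
  simp [S0]

theorem S1_apply (u : A1) : H.S1 u =
    ∑ a, C.m1 a (H.R1 a u) + ∑ a, ∑ b, C.m1 b (C.w0 a (H.E1 a b u)) := by
  simp [S1]

theorem S2_apply (v : A2) : H.S2 v =
    ∑ a, C.m2 a (H.R2 a v) + ∑ a, ∑ b, C.m2 b (C.w1 a (H.E2 a b v)) -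
      ∑ a, ∑ b, ∑ c, C.m2 c (C.w1 b (C.w0 a (H.T a b v + H.T b c v + H.T c a v))) := by
  simp [S2]

/-- `P ∂̄ = 1 - S` in degree `0` -/
theorem hom0 (s : A0) : H.P1 (C.d0 s) = s - H.S0 s := by
  rw [P1_apply, S0_apply]
  simp_rw [H.h0, map_sub]
  rw [Finset.sum_sub_distrib, C.sum_m0]

/-- `∂̄ P + P ∂̄ = 1 - S` in degree `1` -/
theorem hom1 (u : A1) : C.d0 (H.P1 u) + H.P2 (C.d1 u) = u - H.S1 u := by
  rw [P1_apply, S1_apply, P2_apply, map_sum]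
  simp_rw [C.d_m0]
  have e1 : ∑ a, (C.w0 a (H.B1 a u) + C.m1 a (C.d0 (H.B1 a u))) +
      (∑ a, C.m1 a (H.B2 a (C.d1 u)) + ∑ a, ∑ b, C.m1 b (C.w0 a (H.T a b (C.d1 u)))) =
      ∑ a, C.m1 a (C.d0 (H.B1 a u) + H.B2 a (C.d1 u)) +
        (∑ a, C.w0 a (H.B1 a u) + ∑ a, ∑ b, C.m1 b (C.w0 a (H.T a b (C.d1 u)))) := by
    simp_rw [map_add, Finset.sum_add_distrib]
    abel
  rw [e1]
  simp_rw [H.h1, map_sub]
  rw [Finset.sum_sub_distrib, C.sum_m1]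
  have e2 : ∑ a, C.w0 a (H.B1 a u) = ∑ a, ∑ b, C.m1 b (C.w0 a (H.B1 a u)) := by
    refine Finset.sum_congr rfl fun a _ => ?_
    rw [C.sum_m1]
  have e3 : ∑ a, ∑ b, C.m1 b (C.w0 a (H.B1 b u)) = 0 := by
    rw [Finset.sum_comm]
    refine Finset.sum_eq_zero fun b _ => ?_
    rw [← map_sum, C.sum_w0, map_zero]
  have e4 : ∑ a, ∑ b, C.m1 b (C.w0 a (H.B1 b u)) - ∑ a, ∑ b, C.m1 b (C.w0 a (H.B1 a u)) =
      ∑ a, ∑ b, C.m1 b (C.w0 a (H.T a b (C.d1 u))) + ∑ a, ∑ b, C.m1 b (C.w0 a (H.E1 a b u)) := by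
    rw [← Finset.sum_sub_distrib, ← Finset.sum_add_distrib]
    refine Finset.sum_congr rfl fun a _ => ?_
    rw [← Finset.sum_sub_distrib, ← Finset.sum_add_distrib]
    refine Finset.sum_congr rfl fun b _ => ?_
    have := H.t1 a b u
    rw [map_sub, map_sub, map_add, map_add] at this
    exact this
  rw [e3, zero_sub] at e4
  rw [e2]
  have e5 : ∑ a, ∑ b, C.m1 b (C.w0 a (H.T a b (C.d1 u))) =
      - ∑ a, ∑ b, C.m1 b (C.w0 a (H.B1 a u)) - ∑ a, ∑ b, C.m1 b (C.w0 a (H.E1 a b u)) := by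
    rw [e4]; abel
  rw [e5]
  abel

/-- the insertion of `∑ ρ_c = 1` and the antisymmetrisation -/
theorem sum_cyclic (v : A2) :
    ∑ a, ∑ b, ∑ c, C.m2 c (C.w1 b (C.w0 a (H.T a b v + H.T b c v + H.T c a v))) =
      ∑ a, ∑ b, C.w1 b (C.w0 a (H.T a b v)) := by
  simp_rw [map_add, Finset.sum_add_distrib]
  have e1 : ∑ a, ∑ b, ∑ c, C.m2 c (C.w1 b (C.w0 a (H.T a b v))) =
      ∑ a, ∑ b, C.w1 b (C.w0 a (H.T a b v)) := by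
    refine Finset.sum_congr rfl fun a _ => Finset.sum_congr rfl fun b _ => ?_
    rw [C.sum_m2]
  have e2 : ∑ a, ∑ b, ∑ c, C.m2 c (C.w1 b (C.w0 a (H.T b c v))) = 0 := by
    rw [Finset.sum_comm]
    refine Finset.sum_eq_zero fun b _ => ?_
    rw [Finset.sum_comm]
    refine Finset.sum_eq_zero fun c _ => ?_
    rw [← map_sum, ← map_sum, C.sum_w0, map_zero, map_zero]
  have e3 : ∑ a, ∑ b, ∑ c, C.m2 c (C.w1 b (C.w0 a (H.T c a v))) = 0 := by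
    refine Finset.sum_eq_zero fun a _ => ?_
    rw [Finset.sum_comm]
    refine Finset.sum_eq_zero fun c _ => ?_
    rw [← map_sum, C.sum_w1, map_zero]
  rw [e1, e2, e3, add_zero, add_zero]

/-- `∂̄ P = 1 - S` in degree `2` -/
theorem hom2 (v : A2) : C.d1 (H.P2 v) = v - H.S2 v := by
  rw [P2_apply, S2_apply, map_add, map_sum, map_sum, H.sum_cyclic]
  simp_rw [map_sum, C.d_m1, C.d_w0]
  simp_rw [Finset.sum_add_distrib, H.h2, map_sub]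
  rw [Finset.sum_sub_distrib, C.sum_m2]
  have e2 : ∑ a, C.w1 a (H.B2 a v) = ∑ a, ∑ b, C.m2 b (C.w1 a (H.B2 a v)) := by
    refine Finset.sum_congr rfl fun a _ => ?_
    rw [C.sum_m2]
  have e3 : ∑ a, ∑ b, C.m2 b (C.w1 a (H.B2 b v)) = 0 := by
    rw [Finset.sum_comm]
    refine Finset.sum_eq_zero fun b _ => ?_
    rw [← map_sum, C.sum_w1, map_zero]
  have e4 : ∑ a, ∑ b, C.m2 b (C.w1 a (H.B2 b v)) - ∑ a, ∑ b, C.m2 b (C.w1 a (H.B2 a v)) =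
      ∑ a, ∑ b, C.m2 b (-C.w1 a (C.d0 (H.T a b v))) +
        ∑ a, ∑ b, C.m2 b (C.w1 a (H.E2 a b v)) := by
    rw [← Finset.sum_sub_distrib, ← Finset.sum_add_distrib]
    refine Finset.sum_congr rfl fun a _ => ?_
    rw [← Finset.sum_sub_distrib, ← Finset.sum_add_distrib]
    refine Finset.sum_congr rfl fun b _ => ?_
    have := H.t2 a b v
    rw [map_sub, map_sub, map_add, map_add, map_neg] at this
    exact this
  rw [e3, zero_sub] at e4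
  rw [e2]
  have e5 : ∑ a, ∑ b, C.m2 b (-C.w1 a (C.d0 (H.T a b v))) =
      - ∑ a, ∑ b, C.m2 b (C.w1 a (H.B2 a v)) - ∑ a, ∑ b, C.m2 b (C.w1 a (H.E2 a b v)) := by
    rw [e4]; abel
  rw [e5]
  have e6 : ∑ a, ∑ b, C.w1 b (C.w0 a (H.T a b v)) =
      ∑ a, ∑ b, C.w1 b (C.w0 a (H.T a b v)) := rfl
  abel

end Homot

end PUComplex

end Vale.Agent.P267.H462
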