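import Vale.Agent.P267.H399.Calc

/-!
# P267 / H462: change of variables between two holomorphic charts
-/

set_option linter.unusedSectionVars false

open scoped Manifold ContDiff ComplexConjugate Matrix
open MeasureTheory Set Filter Topology

noncomputable section

namespace Vale.Agent.P267.H462

open Vale.Agent.P267.FL

/-- the real determinant of a complex linear map of `ℂ²` -/
theorem det_real (M : Matrix (Fin 2) (Fin 2) ℂ) (L : C2 →L[ℂ] C2) (h : ∀ v, L v = M.mulVec v) :
    (L.restrictScalars ℝ).det = ‖M.det‖ ^ 2 := by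
  have h1 : (L : C2 →ₗ[ℂ] C2) = Matrix.toLin' M := by
    ext1 i
    ext v
    simp [h]
  have h2 : ((L.restrictScalars ℝ : C2 →L[ℝ] C2) : C2 →ₗ[ℝ] C2) =
      (Matrix.toLin' M).restrictScalars ℝ := by
    rw [← h1]
    rfl
  rw [ContinuousLinearMap.det, h2, LinearMap.det_restrictScalars, LinearMap.det_toLin',
    Algebra.norm_complex_apply, Complex.normSq_eq_norm_sq]

variable {X : Type*} [TopologicalSpace X] [ChartedSpace C2 X]

theorem isOpen_tgt (e : Ch X) {S : Set X} (hS : IsOpen S) :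
    IsOpen (e.target ∩ e.symm ⁻¹' S) := by
  exact e.isOpen_inter_preimage_symm hS

variable [IsManifold 𝓘(ℂ, C2) ω X] {V : Type*} [NormedAddCommGroup V] [NormedSpace ℝ V]

theorem image_trans {e e' : Ch X} {S : Set X} (hSe : S ⊆ e.source) (hSe' : S ⊆ e'.source) :
    (fun z => e' (e.symm z)) '' (e.target ∩ e.symm ⁻¹' S) = e'.target ∩ e'.symm ⁻¹' S := by
  ext w
  constructor
  · rintro ⟨z, ⟨hz, hzS⟩, rfl⟩
    have h1 : e.symm z ∈ e'.source := hSe' hzS
    refine ⟨e'.map_source h1, ?_⟩
    rw [mem_preimage, e'.left_inv h1]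
    exact hzS
  · rintro ⟨hw, hwS⟩
    have h1 : e'.symm w ∈ e.source := hSe hwS
    refine ⟨e (e'.symm w), ⟨e.map_source h1, ?_⟩, ?_⟩
    · rw [mem_preimage, e.left_inv h1]
      exact hwS
    · simp only
      rw [e.left_inv h1, e'.right_inv hw]

theorem injOn_trans {e e' : Ch X} {S : Set X} (hSe' : S ⊆ e'.source) :
    InjOn (fun z => e' (e.symm z)) (e.target ∩ e.symm ⁻¹' S) := by
  rintro z ⟨hz, hzS⟩ w ⟨hw, hwS⟩ h
  simp only at h
  have h1 := e'.injOn (hSe' hzS) (hSe' hwS) h
  have h2 := congrArg e h1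
  rwa [e.right_inv hz, e.right_inv hw] at h2

theorem hasFDerivAt_trans {e e' : Ch X} (he : e ∈ atlas C2 X) (he' : e' ∈ atlas C2 X) {z : C2}
    (hz : z ∈ e.target) (hz' : e.symm z ∈ e'.source) :
    HasFDerivAt (fun z => e' (e.symm z))
      ((fderiv ℂ (fun z => e' (e.symm z)) z).restrictScalars ℝ) z :=
  ((trans_analyticAt' he he' hz hz').differentiableAt.hasFDerivAt).restrictScalars ℝ

theorem det_trans {e e' : Ch X} (he : e ∈ atlas C2 X) (he' : e' ∈ atlas C2 X) {z : C2}
    (hz : z ∈ e.target) (hz' : e.symm z ∈ e'.source) :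
    ((fderiv ℂ (fun z => e' (e.symm z)) z).restrictScalars ℝ).det =
      ‖(jacM e e' (e.symm z)).det‖ ^ 2 := by
  refine det_real _ _ fun v => ?_
  rw [jacM_mulVec he he' (e.map_target hz) hz', e.right_inv hz]

/-- change of variables between two charts, over an open subset of the intersection -/
theorem integral_trans {e e' : Ch X} (he : e ∈ atlas C2 X) (he' : e' ∈ atlas C2 X) {S : Set X}
    (hS : IsOpen S) (hSe : S ⊆ e.source) (hSe' : S ⊆ e'.source) (F : C2 → V) :
    ∫ w in e'.target ∩ e'.symm ⁻¹' S, F w =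
      ∫ z in e.target ∩ e.symm ⁻¹' S, ‖(jacM e e' (e.symm z)).det‖ ^ 2 • F (e' (e.symm z)) := by
  rw [← image_trans hSe hSe',
    integral_image_eq_integral_abs_det_fderiv_smul volume (isOpen_tgt e hS).measurableSet
      (fun z hz => (hasFDerivAt_trans he he' hz.1 (hSe' hz.2)).hasFDerivWithinAt)
      (injOn_trans hSe')]
  refine setIntegral_congr_fun (isOpen_tgt e hS).measurableSet fun z hz => ?_
  rw [det_trans he he' hz.1 (hSe' hz.2), abs_of_nonneg (by positivity)]

theorem integrableOn_trans {e e' : Ch X} (he : e ∈ atlas C2 X) (he' : e' ∈ atlas C2 X) {S : Set X}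
    (hS : IsOpen S) (hSe : S ⊆ e.source) (hSe' : S ⊆ e'.source) (F : C2 → V) :
    IntegrableOn F (e'.target ∩ e'.symm ⁻¹' S) ↔
      IntegrableOn (fun z => ‖(jacM e e' (e.symm z)).det‖ ^ 2 • F (e' (e.symm z)))
        (e.target ∩ e.symm ⁻¹' S) := by
  rw [← image_trans hSe hSe',
    integrableOn_image_iff_integrableOn_abs_det_fderiv_smul volume (isOpen_tgt e hS).measurableSet
      (fun z hz => (hasFDerivAt_trans he he' hz.1 (hSe' hz.2)).hasFDerivWithinAt)
      (injOn_trans hSe')]
  refine integrableOn_congr_fun (fun z hz => ?_) (isOpen_tgt e hS).measurableSet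
  rw [det_trans he he' hz.1 (hSe' hz.2), abs_of_nonneg (by positivity)]

end Vale.Agent.P267.H462
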