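import Mathlib

/-!
# P267 / H462: cut-off functions and extension by zero
-/

open Set Filter Topology Metric
open scoped Manifold ContDiff

noncomputable section

namespace Vale.Agent.P267.H462

variable {E : Type*} [NormedAddCommGroup E] [NormedSpace ℝ E] [FiniteDimensional ℝ E]
variable {F : Type*} [NormedAddCommGroup F] [NormedSpace ℝ F]

/-- smooth cut-off function -/
theorem exists_cutoff {K O : Set E} (hK : IsCompact K) (hO : IsOpen O) (hKO : K ⊆ O) :
    ∃ χ : E → ℝ, ContDiff ℝ ∞ χ ∧ HasCompactSupport χ ∧ tsupport χ ⊆ O ∧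
      (∀ x, χ x ∈ Icc (0 : ℝ) 1) ∧ ∃ W : Set E, IsOpen W ∧ K ⊆ W ∧ W ⊆ O ∧ ∀ x ∈ W, χ x = 1 := by
  obtain ⟨K', hK', hKK', hK'O⟩ := exists_compact_between hK hO hKO
  obtain ⟨f, hf1, hf0, hf⟩ := exists_contMDiffMap_one_nhds_of_subset_interior (n := ⊤) 𝓘(ℝ, E)
    hK.isClosed hKK'
  have hsupp : Function.support f ⊆ K' := by
    intro x hx
    by_contra hn
    exact hx (hf0 x hn)
  have hts : tsupport (fun x => f x) ⊆ K' := closure_minimal hsupp hK'.isClosed
  rw [eventually_nhdsSet_iff_exists] at hf1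
  obtain ⟨W, hW, hKW, hW1⟩ := hf1
  refine ⟨fun x => f x, f.contMDiff.contDiff, HasCompactSupport.of_support_subset_isCompact hK' hsupp,
    hts.trans hK'O, hf, W ∩ O, hW.inter hO, subset_inter hKW hKO, inter_subset_right, ?_⟩
  intro x hx
  exact hW1 x hx.1

omit [FiniteDimensional ℝ E] in
/-- extension by zero: a function which is smooth on an open set and vanishes off a closed subset
of it is smooth -/
theorem contDiff_of_supp {n : WithTop ℕ∞} {f : E → F} {O L : Set E} (hO : IsOpen O)
    (hL : IsClosed L) (hLO : L ⊆ O) (hf : ContDiffOn ℝ n f O) (h0 : ∀ x, x ∉ L → f x = 0) :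
    ContDiff ℝ n f := by
  rw [contDiff_iff_contDiffAt]
  intro x
  by_cases hx : x ∈ L
  · exact hf.contDiffAt (hO.mem_nhds (hLO hx))
  · have : f =ᶠ[𝓝 x] fun _ => 0 := by
      filter_upwards [hL.isOpen_compl.mem_nhds hx] with y hy
      exact h0 y hy
    exact contDiffAt_const.congr_of_eventuallyEq this

omit [FiniteDimensional ℝ E] in
/-- extension by zero, on an open subset -/
theorem contDiffOn_of_supp {n : WithTop ℕ∞} {f : E → F} {U O L : Set E} (hO : IsOpen O)
    (hU : IsOpen U) (hL : IsClosed L) (hLO : L ∩ U ⊆ O) (hf : ContDiffOn ℝ n f O)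
    (h0 : ∀ x ∈ U, x ∉ L → f x = 0) : ContDiffOn ℝ n f U := by
  intro x hxU
  refine ContDiffAt.contDiffWithinAt ?_
  by_cases hx : x ∈ L
  · exact hf.contDiffAt (hO.mem_nhds (hLO ⟨hx, hxU⟩))
  · have : f =ᶠ[𝓝 x] fun _ => 0 := by
      filter_upwards [hL.isOpen_compl.mem_nhds hx, hU.mem_nhds hxU] with y hy hyU
      exact h0 y hyU hy
    exact contDiffAt_const.congr_of_eventuallyEq this

/-- a compact subset of an open set has a positive distance from the complement -/
theorem exists_eps {E : Type*} [PseudoMetricSpace E] {K O : Set E} (hK : IsCompact K)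
    (hO : IsOpen O) (hKO : K ⊆ O) : ∃ ε > 0, ∀ z ∈ K, closedBall z ε ⊆ O := by
  obtain ⟨δ, hδ, h⟩ := hK.exists_cthickening_subset_open hO hKO
  refine ⟨δ, hδ, fun z hz w hw => h ?_⟩
  exact closedBall_subset_cthickening hz δ hw

/-- a common radius for finitely many compact sets -/
theorem exists_eps_finite {E : Type*} [PseudoMetricSpace E] {J : Type*} [Finite J]
    {K O : J → Set E} (hK : ∀ j, IsCompact (K j)) (hO : ∀ j, IsOpen (O j))
    (hKO : ∀ j, K j ⊆ O j) : ∃ ε > 0, ∀ j, ∀ z ∈ K j, closedBall z ε ⊆ O j := by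
  classical
  cases nonempty_fintype J
  choose ε hε h using fun j => exists_eps (hK j) (hO j) (hKO j)
  rcases isEmpty_or_nonempty J with hJ | hJ
  · exact ⟨1, one_pos, fun j => hJ.elim j⟩
  · refine ⟨Finset.univ.inf' Finset.univ_nonempty ε, ?_, fun j z hz => ?_⟩
    · rw [gt_iff_lt, Finset.lt_inf'_iff]
      exact fun j _ => hε j
    · refine (closedBall_subset_closedBall ?_).trans (h j z hz)
      exact Finset.inf'_le ε (Finset.mem_univ j)

end Vale.Agent.P267.H462
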