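import Vale.Agent.P267.H462.Sys1

/-!
# P267 / H462: extension by zero, bundle maps
-/

set_option linter.unusedSectionVars false

open scoped Manifold ContDiff ComplexConjugate Matrix
open MeasureTheory Set Filter Topology

noncomputable section

namespace Vale.Agent.P267.H462

open Vale.Agent.P267.FL Vale.Agent.P267.RR

variable {X : Type*} [TopologicalSpace X] [ChartedSpace C2 X] {A : FinAt X}
  {V : Type} [NormedAddCommGroup V] [NormedSpace ℂ V]
  {W : Type} [NormedAddCommGroup W] [NormedSpace ℂ W]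
  {Z : Type} [NormedAddCommGroup Z] [NormedSpace ℂ Z]

/-- the function vanishes off a compact subset of `O c` -/
def CSupp (A : FinAt X) (c : Fin A.N) (F : C2 → W) : Prop :=
  ∃ L : Set C2, IsCompact L ∧ L ⊆ A.O c ∧ ∀ z, z ∉ L → F z = 0

open Classical in
/-- extension by zero of a function with compact support in the chart `c` -/
def extz (S : SB A W) (c : Fin A.N) (F : C2 → W) : Fin A.N → C2 → W := fun a z =>
  if z ∈ A.ov a c then S.T c a (A.tau a c z) (F (A.tau a c z)) else 0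

theorem extz_of_mem (S : SB A W) {a c : Fin A.N} (F : C2 → W) {z : C2} (hz : z ∈ A.ov a c) :
    extz S c F a z = S.T c a (A.tau a c z) (F (A.tau a c z)) := by
  rw [extz, if_pos hz]

theorem extz_of_notMem (S : SB A W) {a c : Fin A.N} (F : C2 → W) {z : C2} (hz : z ∉ A.ov a c) :
    extz S c F a z = 0 := by
  rw [extz, if_neg hz]

theorem extz_self (S : SB A W) {c : Fin A.N} (F : C2 → W) {z : C2} (hz : z ∈ A.O c) :
    extz S c F c z = F z := by
  have h : z ∈ A.ov c c := FinAt.mem_ov_self hz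
  rw [extz_of_mem S F h, FinAt.tau_self hz, S.self c z hz]

theorem isClosed_symm_image [T2Space X] {c : Fin A.N} {L : Set C2} (hL : IsCompact L)
    (hLO : L ⊆ A.O c) : IsClosed ((A.e c).symm '' L) :=
  (hL.image_of_continuousOn ((continuousOn_symm c).mono hLO)).isClosed

/-- near a point of `O a` which is not in `ov a c`, no point is mapped to `L` -/
theorem eventually_not_mem [T2Space X] {a c : Fin A.N} {L : Set C2} (hL : IsCompact L)
    (hLO : L ⊆ A.O c) {z : C2} (hz : z ∈ A.O a) (h : ∀ y ∈ L, (A.e c).symm y ≠ (A.e a).symm z) :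
    ∀ᶠ z' in 𝓝 z, z' ∈ A.O a ∧ ∀ y ∈ L, (A.e c).symm y ≠ (A.e a).symm z' := by
  have h1 : (A.e a).symm z ∈ ((A.e c).symm '' L)ᶜ := by
    rintro ⟨y, hy, hyz⟩
    exact h y hy hyz
  have h2 : ContinuousAt (A.e a).symm z :=
    (continuousOn_symm a).continuousAt ((A.isOpen_O a).mem_nhds hz)
  filter_upwards [h2.preimage_mem_nhds ((isClosed_symm_image hL hLO).isOpen_compl.mem_nhds h1),
    (A.isOpen_O a).mem_nhds hz] with z' hz' hzO
  exact ⟨hzO, fun y hy hyz => hz' ⟨y, hy, hyz⟩⟩

theorem extz_contDiffOn [T2Space X] [IsManifold 𝓘(ℂ, C2) ω X] [FiniteDimensional ℂ W] (S : SB A W) {c : Fin A.N} {F : C2 → W}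
    (hF : ContDiffOn ℝ ∞ F (A.O c)) (hc : CSupp A c F) (a : Fin A.N) :
    ContDiffOn ℝ ∞ (extz S c F a) (A.O a) := by
  obtain ⟨L, hL, hLO, hL0⟩ := hc
  intro z hz
  refine ContDiffAt.contDiffWithinAt ?_
  by_cases hzc : z ∈ A.ov a c
  · have h1 : extz S c F a =ᶠ[𝓝 z] fun z => S.T c a (A.tau a c z) (F (A.tau a c z)) := by
      filter_upwards [(A.isOpen_ov a c).mem_nhds hzc] with w hw
      exact extz_of_mem S F hw
    refine ContDiffAt.congr_of_eventuallyEq ?_ h1
    have h2 : ContDiffAt ℝ ∞ (A.tau a c) z :=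
      tau_contDiffAt_real hzc
    have h3 : A.tau a c z ∈ A.ov c a := FinAt.tau_mem hzc
    have h4 : ContDiffAt ℝ ∞ (S.T c a) (A.tau a c z) :=
      (sb_contDiffOn S c a).contDiffAt ((A.isOpen_ov c a).mem_nhds h3)
    have h5 : ContDiffAt ℝ ∞ F (A.tau a c z) :=
      hF.contDiffAt ((A.isOpen_O c).mem_nhds h3.1)
    have h6 : ContDiffAt ℝ ∞ (fun z => (S.T c a (A.tau a c z)).restrictScalars ℝ) z :=
      ((ContinuousLinearMap.restrictScalarsL ℂ W W ℝ ℝ).contDiff.contDiffAt.comp
        (A.tau a c z) h4).comp z h2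
    exact h6.clm_apply (h5.comp z h2)
  · have h1 : ∀ y ∈ L, (A.e c).symm y ≠ (A.e a).symm z := by
      intro y hy hyz
      apply hzc
      refine ⟨hz, ?_⟩
      rw [← hyz]
      exact (hLO hy).2
    have h2 : extz S c F a =ᶠ[𝓝 z] fun _ => 0 := by
      filter_upwards [eventually_not_mem hL hLO hz h1] with w hw
      by_cases hwc : w ∈ A.ov a c
      · rw [extz_of_mem S F hwc, hL0, map_zero]
        intro hmem
        exact hw.2 _ hmem (FinAt.symm_tau hwc)
      · exact extz_of_notMem S F hwc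
    exact contDiffAt_const.congr_of_eventuallyEq h2

theorem extz_compat (S : SB A W) {c : Fin A.N} (F : C2 → W) {a b : Fin A.N} {z : C2}
    (hz : z ∈ A.ov a b) : extz S c F b (A.tau a b z) = S.T a b z (extz S c F a z) := by
  by_cases hc : z ∈ A.ov a c
  · have h1 : A.tau a b z ∈ A.ov b c := (mem_ov_tau hz).2 hc
    rw [extz_of_mem S F hc, extz_of_mem S F h1, FinAt.tau_comp c hz]
    have h2 : A.tau a c z ∈ A.ov c a := FinAt.tau_mem hc
    have h3 : A.tau a c z ∈ A.ov c b := (mem_ov_tau hc).2 hz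
    have h4 := S.comp c a b (A.tau a c z) h2 h3 (F (A.tau a c z))
    rw [FinAt.tau_tau hc] at h4
    exact h4.symm
  · have h1 : A.tau a b z ∉ A.ov b c := fun h => hc ((mem_ov_tau hz).1 h)
    rw [extz_of_notMem S F hc, extz_of_notMem S F h1, map_zero]

theorem extz_mem [T2Space X] [IsManifold 𝓘(ℂ, C2) ω X] [FiniteDimensional ℂ W] (S : SB A W) {c : Fin A.N} {F : C2 → W}
    (hF : ContDiffOn ℝ ∞ F (A.O c)) (hc : CSupp A c F) : extz S c F ∈ S.Sec :=
  ⟨extz_contDiffOn S hF hc, fun _ _ hz => extz_of_notMem S F fun h => hz h.1,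
    fun _ _ _ hz => extz_compat S F hz⟩

/-! ### bundle maps -/

/-- smooth bundle map -/
structure BM (S : SB A V) (S' : SB A W) where
  φ : Fin A.N → C2 → V →L[ℂ] W
  smooth : ∀ a, ContDiffOn ℝ ∞ (φ a) (A.O a)
  off : ∀ a z, z ∉ A.O a → φ a z = 0
  compat : ∀ a b z, z ∈ A.ov a b → ∀ v, φ b (A.tau a b z) (S.T a b z v) = S'.T a b z (φ a z v)

namespace BM

variable {S : SB A V} {S' : SB A W} {S'' : SB A Z}

/-- the action on sections -/
def op (Φ : BM S S') : S.Sec →ₗ[ℂ] S'.Sec where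
  toFun u := ⟨fun a z => Φ.φ a z (u.1 a z), fun a => by
      have h1 : ContDiffOn ℝ ∞ (fun z => (Φ.φ a z).restrictScalars ℝ) (A.O a) :=
        (ContinuousLinearMap.restrictScalarsL ℂ V W ℝ ℝ).contDiff.comp_contDiffOn (Φ.smooth a)
      exact h1.clm_apply (sec_smooth u a),
    fun a z hz => by
      change Φ.φ a z (u.1 a z) = 0
      rw [sec_off u hz, map_zero],
    fun a b z hz => by
      change Φ.φ b (A.tau a b z) (u.1 b (A.tau a b z)) = S'.T a b z (Φ.φ a z (u.1 a z))
      rw [sec_compat u hz, Φ.compat a b z hz]⟩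
  map_add' u v := by
    apply Subtype.ext
    funext a z
    exact map_add (Φ.φ a z) _ _
  map_smul' c u := by
    apply Subtype.ext
    funext a z
    exact map_smul (Φ.φ a z) _ _

@[simp] theorem op_apply (Φ : BM S S') (u : S.Sec) (a : Fin A.N) (z : C2) :
    (Φ.op u).1 a z = Φ.φ a z (u.1 a z) := rfl

/-- composition -/
def comp (Ψ : BM S' S'') (Φ : BM S S') : BM S S'' where
  φ a z := (Ψ.φ a z).comp (Φ.φ a z)
  smooth a := contDiff_comp_clm.comp_contDiffOn ((Ψ.smooth a).prodMk (Φ.smooth a))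
  off a z hz := by rw [Φ.off a z hz, ContinuousLinearMap.comp_zero]
  compat a b z hz v := by
    rw [ContinuousLinearMap.comp_apply, ContinuousLinearMap.comp_apply, Φ.compat a b z hz,
      Ψ.compat a b z hz]

theorem comp_op (Ψ : BM S' S'') (Φ : BM S S') : (Ψ.comp Φ).op = Ψ.op.comp Φ.op := by
  refine LinearMap.ext fun u => Subtype.ext ?_
  funext a z
  rfl

end BM

end Vale.Agent.P267.H462
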