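import Vale.Agent.P267.H462.Ext
import Vale.Agent.P267.H551.WkLoc
import Vale.Agent.P267.H551.WkDiff
import Vale.Agent.P267.H667.Cut

/-!
# P267 / H462: local integral operators between bundles
-/

set_option linter.unusedSectionVars false

open scoped Manifold ContDiff ComplexConjugate Matrix
open MeasureTheory Set Filter Topology

noncomputable section

namespace Vale.Agent.P267.H462

open Vale.Agent.P267.FL Vale.Agent.P267.RR Vale.Agent.P267.H551

variable {X : Type*} [TopologicalSpace X] [ChartedSpace C2 X] {A : FinAt X}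
  {V : Type} [NormedAddCommGroup V] [NormedSpace ℂ V]
  {W : Type} [NormedAddCommGroup W] [NormedSpace ℂ W]
  {Z : Type} [NormedAddCommGroup Z] [NormedSpace ℂ Z]

theorem finrank4 : Module.finrank ℝ C2 = 4 := H667.finrank_C2

/-- evaluation as a real bilinear map -/
def evB (V W : Type) [NormedAddCommGroup V] [NormedSpace ℂ V] [NormedAddCommGroup W]
    [NormedSpace ℂ W] : (V →L[ℂ] W) →L[ℝ] V →L[ℝ] W :=
  ContinuousLinearMap.restrictScalarsL ℂ V W ℝ ℝ

@[simp] theorem evB_apply (f : V →L[ℂ] W) (v : V) : evB V W f v = f v := rfl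

/-- the integral operator with kernel `k` -/
def IK (k : C2 → C2 → (V →L[ℂ] W)) (f : C2 → V) (x : C2) : W := ∫ y, k x y (f y)

theorem IK_eq (k : C2 → C2 → (V →L[ℂ] W)) (f : C2 → V) : IK k f = Tk volume (evB V W) k f := rfl

/-- a weakly singular kernel with compact support in `O c × O c` -/
structure LKer (A : FinAt X) (c : Fin A.N) (m : ℕ) (k : C2 → C2 → (V →L[ℂ] W)) : Prop where
  ker : Ker ∞ m k
  supp : ∃ L, IsCompact L ∧ L ⊆ A.O c ∧ ∀ x y, k x y ≠ 0 → x ∈ L ∧ y ∈ L

/-- a smooth function on `O` agrees near a compact subset with a globally smooth one -/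
theorem exists_glob {O L : Set C2} (hO : IsOpen O) (hL : IsCompact L) (hLO : L ⊆ O) {u : C2 → V}
    (hu : ContDiffOn ℝ ∞ u O) : ∃ g : C2 → V, ContDiff ℝ ∞ g ∧ HasCompactSupport g ∧
      ∃ N, IsOpen N ∧ L ⊆ N ∧ N ⊆ O ∧ ∀ y ∈ N, g y = u y := by
  obtain ⟨χ, h1, h2, h3, -, N, hN, hLN, hNO, hN1⟩ := exists_cutoff hL hO hLO
  refine ⟨fun y => χ y • u y, ?_, h2.smul_right, N, hN, hLN, hNO, fun y hy => by
    simp [hN1 y hy]⟩
  refine contDiff_of_supp hO (isClosed_tsupport χ) h3 ?_ ?_
  · exact h1.contDiffOn.smul hu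
  · intro y hy
    rw [image_eq_zero_of_notMem_tsupport hy, zero_smul]

/-- the operator only sees the function on the support of the kernel -/
theorem IK_congr {k : C2 → C2 → (V →L[ℂ] W)} {L : Set C2} {f g : C2 → V} {x : C2}
    (hk : ∀ y, k x y ≠ 0 → y ∈ L) (h : ∀ y ∈ L, f y = g y) : IK k f x = IK k g x := by
  unfold IK
  congr 1
  funext y
  by_cases hy : k x y = 0
  · simp [hy]
  · rw [h y (hk y hy)]

namespace LKer

variable {c : Fin A.N} {m : ℕ} {k : C2 → C2 → (V →L[ℂ] W)}

theorem lt4 (hm : m < 4) : m < Module.finrank ℝ C2 := by rw [finrank4]; exact hm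

theorem integrable (h : LKer A c m k) (hm : m < 4) {u : C2 → V} (hu : ContDiffOn ℝ ∞ u (A.O c))
    (x : C2) : Integrable fun y => k x y (u y) := by
  obtain ⟨L, hL, hLO, hk⟩ := h.supp
  obtain ⟨g, hg, -, N, -, hLN, -, hgu⟩ := exists_glob (A.isOpen_O c) hL hLO hu
  have h1 : Integrable fun y => evB V W (k x y) (g y) :=
    (h.ker.of_le (by simp)).integrable_bil' volume (evB V W) (lt4 hm) hg.continuous x
  refine h1.congr (Eventually.of_forall fun y => ?_)
  simp only [evB_apply]
  by_cases hy : k x y = 0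
  · simp [hy]
  · rw [hgu y (hLN (hk x y hy).2)]

theorem contDiff (h : LKer A c m k) (hm : m < 4) {u : C2 → V}
    (hu : ContDiffOn ℝ ∞ u (A.O c)) : ContDiff ℝ ∞ (IK k u) := by
  obtain ⟨L, hL, hLO, hk⟩ := h.supp
  obtain ⟨g, hg, -, N, -, hLN, -, hgu⟩ := exists_glob (A.isOpen_O c) hL hLO hu
  have h1 : IK k u = IK k g := by
    funext x
    exact IK_congr (fun y hy => (hk x y hy).2) fun y hy => (hgu y (hLN hy)).symm
  rw [h1, IK_eq]
  have h2 := h.ker.contDiff_family volume (evB V W) (lt4 hm) (P := ℝ)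
    (f := fun p : C2 × ℝ => g p.1) (hg.comp contDiff_fst)
  have h3 : ContDiff ℝ ∞ fun x : C2 => (x, (0 : ℝ)) := by fun_prop
  exact h2.comp h3

theorem csupp (h : LKer A c m k) (u : C2 → V) : CSupp A c (IK k u) := by
  obtain ⟨L, hL, hLO, hk⟩ := h.supp
  refine ⟨L, hL, hLO, fun x hx => ?_⟩
  have h1 : ∀ y, k x y = 0 := by
    intro y
    by_contra hy
    exact hx (hk x y hy).1
  simp [IK, h1]

end LKer

section LO

variable [T2Space X] [IsManifold 𝓘(ℂ, C2) ω X] [FiniteDimensional ℂ W] [FiniteDimensional ℂ Z]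
  {S : SB A V} {S' : SB A W} {S'' : SB A Z}

/-- the local operator with kernel `k` in the chart `c` -/
def LO (S : SB A V) (S' : SB A W) (c : Fin A.N) {m : ℕ} (hm : m < 4) {k : C2 → C2 → (V →L[ℂ] W)}
    (h : LKer A c m k) : S.Sec →ₗ[ℂ] S'.Sec where
  toFun u := ⟨extz S' c (IK k (u.1 c)),
    extz_mem S' (h.contDiff hm (sec_smooth u c)).contDiffOn (h.csupp _)⟩
  map_add' u v := by
    apply Subtype.ext
    funext a z
    have h1 : ∀ x, IK k ((u + v).1 c) x = IK k (u.1 c) x + IK k (v.1 c) x := by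
      intro x
      have := integral_add (h.integrable hm (sec_smooth u c) x)
        (h.integrable hm (sec_smooth v c) x)
      rw [IK, IK, IK, ← this]
      congr 1
      funext y
      exact map_add (k x y) _ _
    change extz S' c _ a z = extz S' c _ a z + extz S' c _ a z
    by_cases hz : z ∈ A.ov a c
    · rw [extz_of_mem S' _ hz, extz_of_mem S' _ hz, extz_of_mem S' _ hz, h1, map_add]
    · rw [extz_of_notMem S' _ hz, extz_of_notMem S' _ hz, extz_of_notMem S' _ hz, add_zero]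
  map_smul' r u := by
    apply Subtype.ext
    funext a z
    have h1 : ∀ x, IK k ((r • u).1 c) x = r • IK k (u.1 c) x := by
      intro x
      rw [IK, IK, ← integral_smul]
      congr 1
      funext y
      exact map_smul (k x y) _ _
    change extz S' c _ a z = r • extz S' c _ a z
    by_cases hz : z ∈ A.ov a c
    · rw [extz_of_mem S' _ hz, extz_of_mem S' _ hz, h1, map_smul]
    · rw [extz_of_notMem S' _ hz, extz_of_notMem S' _ hz, smul_zero]

theorem LO_val (c : Fin A.N) {m : ℕ} (hm : m < 4) {k : C2 → C2 → (V →L[ℂ] W)}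
    (h : LKer A c m k) (u : S.Sec) : (LO S S' c hm h u).1 = extz S' c (IK k (u.1 c)) := rfl

theorem LO_self (c : Fin A.N) {m : ℕ} (hm : m < 4) {k : C2 → C2 → (V →L[ℂ] W)}
    (h : LKer A c m k) (u : S.Sec) {z : C2} (hz : z ∈ A.O c) :
    (LO S S' c hm h u).1 c z = IK k (u.1 c) z := by
  rw [LO_val, extz_self S' _ hz]

/-- **localisation**: an operator `R`, multiplied by a bundle map `Φ` with support in `N ⊆ U c`,
which over `N` is given by a kernel in the chart `c`, is a local operator -/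
theorem op_comp_eq_LO {N : Set X} (c : Fin A.N) (hN : N ⊆ A.U c) (Φ : BM S' S'')
    (hΦ : ∀ b, ∀ z ∈ A.O b, (A.e b).symm z ∉ N → Φ.φ b z = 0)
    (R : S.Sec →ₗ[ℂ] S'.Sec) (κ : C2 → C2 → (V →L[ℂ] W)) {m : ℕ} (hm : m < 4)
    (h : LKer A c m fun z w => (Φ.φ c z).comp (κ z w))
    (hint : ∀ (u : S.Sec), ∀ z ∈ im A c N, Integrable fun w => κ z w (u.1 c w))
    (hR : ∀ (u : S.Sec), ∀ z ∈ im A c N, (R u).1 c z = ∫ w, κ z w (u.1 c w))
    [CompleteSpace W] [CompleteSpace Z] :
    Φ.op.comp R = LO S S'' c hm h := by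
  refine LinearMap.ext fun u => sec_ext c (fun z hz => ?_) fun b z hz hzc => ?_
  · rw [LO_self c hm h u hz]
    change Φ.φ c z ((R u).1 c z) = ∫ w, (Φ.φ c z) (κ z w (u.1 c w))
    by_cases hzN : (A.e c).symm z ∈ N
    · have hz' : z ∈ im A c N := (mem_im_iff hN).2 ⟨hz, hzN⟩
      rw [hR u z hz']
      exact ((Φ.φ c z).integral_comp_comm (hint u z hz')).symm
    · rw [hΦ c z hz hzN]
      simp
  · change Φ.φ b z ((R u).1 b z) = extz S'' c _ b z
    rw [hΦ b z hz fun h => hzc (hN h), extz_of_notMem]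
    · simp
    · exact fun h => hzc h.2

end LO

end Vale.Agent.P267.H462
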