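import Vale.Agent.P267.H462.Mul
import Vale.Agent.P267.H462.LO
import Vale.Agent.P267.H551.RRC
import Vale.Agent.P267.H551.OutK
import Vale.Agent.P267.H551.Kop
import Vale.Agent.P267.H433.Todd

/-!
# P267 / H462: glue data and the local operators `B1 a`, `B2 a`, `T a b`
-/

set_option linter.unusedSectionVars false

open scoped Manifold ContDiff ComplexConjugate Matrix
open MeasureTheory Set Filter Topology Metric

noncomputable section

namespace Vale.Agent.P267.H462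

open Vale.Agent.P267.FL Vale.Agent.P267.RR Vale.Agent.P267.H551
open Vale.Agent.P267.H667 (IsCutoff kc cst)
open Vale.Agent.P267.H433 (Tr)

variable {X : Type*} [TopologicalSpace X] [ChartedSpace C2 X] {A : FinAt X}
  {V : Type} [NormedAddCommGroup V] [NormedSpace ℂ V]
  {W : Type} [NormedAddCommGroup W] [NormedSpace ℂ W]

/-- the endomorphism algebra of the fibre -/
abbrev EA (r : ℕ) : Type := (Fin r → ℂ) →L[ℂ] (Fin r → ℂ)

theorem three_lt : 3 < 4 := by norm_num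
theorem two_lt : 2 < 4 := by norm_num
theorem zero_lt4 : 0 < 4 := by norm_num

/-- the support of `rho a` -/
def sp (A : FinAt X) (a : Fin A.N) : Set X := tsupport (A.rho a)

variable {r : ℕ} (B : Bun A r)

/-- the transition from the chart `a` to the chart `b`, in the form of helper433 -/
def TT (a b : Fin A.N) : Tr (EA r) where
  f := A.tau a b
  e z := mL (B.E a b z)
  ei z := mL (B.E b a (A.tau a b z))

/-- GLUE DATA: a radius `ε`, a cut-off function `η`, cut-off functions `χ a`, domains `D a b` and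
cut-off functions `θ a b` near the diagonal -/
structure Gl (B : Bun A r) where
  ε : ℝ
  ε_pos : 0 < ε
  ball : ∀ a b c, ∀ z ∈ im A a (sp A a ∩ sp A b ∩ sp A c),
    closedBall z ε ⊆ A.ov a b ∩ A.ov a c
  η : C2 → ℝ
  η_cut : IsCutoff η
  η_supp : tsupport η ⊆ closedBall 0 ε
  χ : Fin A.N → C2 → ℝ
  χ_smooth : ∀ a, ContDiff ℝ ∞ (χ a)
  χ_comp : ∀ a, HasCompactSupport (χ a)
  χ_one : ∀ a, ∃ N, IsOpen N ∧ A.K a ⊆ N ∧ ∀ x ∈ N, χ a x = 1
  χ_ball : ∀ a, ∀ x ∈ tsupport (χ a), closedBall x ε ⊆ A.O a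
  D : Fin A.N → Fin A.N → Set (C2 × C2)
  D_on : ∀ a b, (TT B a b).On (D a b) (A.ov a b)
  D_sub : ∀ a b, D a b ⊆ A.ov a b ×ˢ A.ov a b
  D_diag : ∀ a b, ∀ x ∈ A.ov a b, (x, x) ∈ D a b
  θ : Fin A.N → Fin A.N → C2 × C2 → ℝ
  θ_smooth : ∀ a b, ContDiff ℝ ∞ (θ a b)
  θ_comp : ∀ a b, HasCompactSupport (θ a b)
  θ_supp : ∀ a b, tsupport (θ a b) ⊆ D a b
  θ_near : ∀ a b, ∀ p ∈ tsupport (θ a b), p.2 ∈ closedBall p.1 ε
  θ_one : ∀ a b, ∃ N : Set (C2 × C2), IsOpen N ∧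
    (∀ z ∈ im A a (sp A a ∩ sp A b), (z, z) ∈ N) ∧ ∀ p ∈ N, θ a b p = 1

variable {B} (G : Gl B)

namespace Gl

/-- the kernel of `B1 a`: `u ↦ χ_a(x) ∑_j (η K_j)(x - y) u_j` -/
def kB1 (a : Fin A.N) (x y : C2) : (Fin 2 → Fin r → ℂ) →L[ℂ] (Fin r → ℂ) :=
  ∑ j, ((G.χ a x : ℂ) * kc G.η j (x - y)) • ContinuousLinearMap.proj j

/-- the kernel of `B2 a`: `v ↦ χ_a(x) (-(η K_1)(x - y) v, (η K_0)(x - y) v)` -/
def kB2 (a : Fin A.N) (x y : C2) : (Fin r → ℂ) →L[ℂ] (Fin 2 → Fin r → ℂ) :=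
  pr1 ![-((G.χ a x : ℂ) * kc G.η 1 (x - y)), (G.χ a x : ℂ) * kc G.η 0 (x - y)]

/-- the kernel of `T a b`: `- cst θ_ab C_ab` -/
def kT (a b : Fin A.N) (x y : C2) : (Fin r → ℂ) →L[ℂ] (Fin r → ℂ) :=
  (-(cst : ℂ)) • (G.θ a b (x, y) • (TT B a b).C (x, y))

/-! ### they are local kernels -/

theorem χ_cut_K (a : Fin A.N) {x : C2} (hx : x ∈ A.K a) : ∀ᶠ y in 𝓝 x, G.χ a y = 1 := by
  obtain ⟨N, hN, hK, h1⟩ := G.χ_one a
  filter_upwards [hN.mem_nhds (hK hx)] with y hy using h1 y hy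

/-- the compact set of all points at distance at most `ε` from the support of `χ a` -/
def LL (a : Fin A.N) : Set C2 := (fun p : C2 × C2 => p.1 + p.2) '' (tsupport (G.χ a) ×ˢ
  closedBall (0 : C2) G.ε)

theorem isCompact_LL (a : Fin A.N) : IsCompact (G.LL a) :=
  ((G.χ_comp a).isCompact.prod (isCompact_closedBall 0 G.ε)).image (by fun_prop)

theorem LL_sub (a : Fin A.N) : G.LL a ⊆ A.O a := by
  rintro _ ⟨⟨x, v⟩, ⟨hx, hv⟩, rfl⟩
  refine G.χ_ball a x hx ?_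
  simpa [mem_closedBall, dist_eq_norm] using hv

theorem mem_LL {a : Fin A.N} {x y : C2} (hx : G.χ a x ≠ 0) (hy : G.η (x - y) ≠ 0) :
    x ∈ G.LL a ∧ y ∈ G.LL a := by
  have h1 : x ∈ tsupport (G.χ a) := subset_tsupport _ hx
  have h2 : x - y ∈ closedBall (0 : C2) G.ε := G.η_supp (subset_tsupport _ hy)
  refine ⟨⟨(x, 0), ⟨h1, by simp [G.ε_pos.le]⟩, by simp⟩, ⟨(x, y - x), ⟨h1, ?_⟩, by simp⟩⟩
  rw [mem_closedBall_zero_iff] at h2 ⊢
  rwa [norm_sub_rev]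

theorem cutfn_smooth (a : Fin A.N) : ContDiff ℝ ∞ fun p : C2 × C2 => G.χ a p.1 * G.η (p.1 - p.2) :=
  ((G.χ_smooth a).comp contDiff_fst).mul (G.η_cut.smooth.comp (contDiff_fst.sub contDiff_snd))

theorem cutfn_comp (a : Fin A.N) :
    HasCompactSupport fun p : C2 × C2 => G.χ a p.1 * G.η (p.1 - p.2) := by
  refine HasCompactSupport.of_support_subset_isCompact ((G.isCompact_LL a).prod (G.isCompact_LL a))
    fun p hp => ?_
  have hp' : G.χ a p.1 * G.η (p.1 - p.2) ≠ 0 := hp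
  exact G.mem_LL (left_ne_zero_of_mul hp') (right_ne_zero_of_mul hp')

end Gl

namespace Gl

theorem ker_kc (a : Fin A.N) (j : Fin 2) :
    Ker ∞ 3 fun x y : C2 => (G.χ a x : ℂ) * kc G.η j (x - y) := by
  have h := (kerOn_K j).cut isOpen_univ (G.cutfn_smooth a) (G.cutfn_comp a) (subset_univ _)
  convert h using 3
  simp only [kc, Complex.real_smul]
  push_cast
  ring

theorem kc_ne {a : Fin A.N} {j : Fin 2} {x y : C2}
    (h : (G.χ a x : ℂ) * kc G.η j (x - y) ≠ 0) : G.χ a x ≠ 0 ∧ G.η (x - y) ≠ 0 := by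
  constructor
  · intro h1
    apply h
    rw [h1, Complex.ofReal_zero, zero_mul]
  · intro h1
    apply h
    simp [kc, h1]

theorem lkB1 (a : Fin A.N) : LKer A a 3 (G.kB1 a) := by
  constructor
  · refine Ker.sum fun j _ => ?_
    exact (G.ker_kc a j).clm
      ((ContinuousLinearMap.lsmul ℝ ℂ : ℂ →L[ℝ] ((Fin 2 → Fin r → ℂ) →L[ℂ] (Fin r → ℂ)) →L[ℝ]
        ((Fin 2 → Fin r → ℂ) →L[ℂ] (Fin r → ℂ))).flip (ContinuousLinearMap.proj j))
  · refine ⟨G.LL a, G.isCompact_LL a, G.LL_sub a, fun x y h => ?_⟩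
    by_contra hcon
    apply h
    refine Finset.sum_eq_zero fun j _ => ?_
    have : (G.χ a x : ℂ) * kc G.η j (x - y) = 0 := by
      by_contra hne
      exact hcon (G.mem_LL (G.kc_ne hne).1 (G.kc_ne hne).2)
    rw [this]
    exact zero_smul ℂ _

theorem lkB2 (a : Fin A.N) : LKer A a 3 (G.kB2 a) := by
  constructor
  · have h : Ker ∞ 3 fun x y : C2 => (![-((G.χ a x : ℂ) * kc G.η 1 (x - y)),
        (G.χ a x : ℂ) * kc G.η 0 (x - y)] : Fin 2 → ℂ) := by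
      have e : (fun x y : C2 => (![-((G.χ a x : ℂ) * kc G.η 1 (x - y)),
          (G.χ a x : ℂ) * kc G.η 0 (x - y)] : Fin 2 → ℂ)) = fun x y =>
          -((ContinuousLinearMap.single ℝ (fun _ : Fin 2 => ℂ) 0)
            ((G.χ a x : ℂ) * kc G.η 1 (x - y))) +
          (ContinuousLinearMap.single ℝ (fun _ : Fin 2 => ℂ) 1)
            ((G.χ a x : ℂ) * kc G.η 0 (x - y)) := by
        funext x y i
        fin_cases i <;> simp
      rw [e]
      exact ((G.ker_kc a 1).clm _).neg.add ((G.ker_kc a 0).clm _)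
    exact h.clm ((pr1 (r := r)).restrictScalars ℝ)
  · refine ⟨G.LL a, G.isCompact_LL a, G.LL_sub a, fun x y h => ?_⟩
    by_contra hcon
    apply h
    have : ∀ j, (G.χ a x : ℂ) * kc G.η j (x - y) = 0 := by
      intro j
      by_contra hne
      exact hcon (G.mem_LL (G.kc_ne hne).1 (G.kc_ne hne).2)
    rw [kB2, this, this]
    have : (![-0, 0] : Fin 2 → ℂ) = 0 := by
      funext i
      fin_cases i <;> simp
    rw [this, map_zero]

theorem lkT (a b : Fin A.N) : LKer A a 2 (G.kT a b) := by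
  constructor
  · have h := ker_C (G.D_on a b) (G.θ_smooth a b) (G.θ_comp a b) (G.θ_supp a b)
    exact h.clm ((ContinuousLinearMap.lsmul ℝ ℂ : ℂ →L[ℝ] EA r →L[ℝ] EA r) (-(cst : ℂ)))
  · refine ⟨Prod.fst '' tsupport (G.θ a b) ∪ Prod.snd '' tsupport (G.θ a b),
      ((G.θ_comp a b).isCompact.image continuous_fst).union
        ((G.θ_comp a b).isCompact.image continuous_snd), ?_, fun x y h => ?_⟩
    · rintro _ (⟨p, hp, rfl⟩ | ⟨p, hp, rfl⟩)
      · exact (G.D_sub a b (G.θ_supp a b hp)).1.1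
      · exact (G.D_sub a b (G.θ_supp a b hp)).2.1
    · have h1 : (x, y) ∈ tsupport (G.θ a b) := by
        apply subset_tsupport
        intro h0
        apply h
        rw [kT, h0]
        simp
      exact ⟨Or.inl ⟨_, h1, rfl⟩, Or.inr ⟨_, h1, rfl⟩⟩

section ops

variable [T2Space X] [IsManifold 𝓘(ℂ, C2) ω X]

/-- the local homotopy on `(0,1)`-forms -/
def B1 (a : Fin A.N) : B.sb1.Sec →ₗ[ℂ] B.sb0.Sec := LO B.sb1 B.sb0 a three_lt (G.lkB1 a)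

/-- the local homotopy on `(0,2)`-forms -/
def B2 (a : Fin A.N) : B.sb2.Sec →ₗ[ℂ] B.sb1.Sec := LO B.sb2 B.sb1 a three_lt (G.lkB2 a)

/-- the comparison operator of the charts `a`, `b` -/
def T (a b : Fin A.N) : B.sb2.Sec →ₗ[ℂ] B.sb0.Sec := LO B.sb2 B.sb0 a two_lt (G.lkT a b)

end ops

end Gl

section statements

variable [T2Space X] [IsManifold 𝓘(ℂ, C2) ω X]

/-- the operator `R` is the local operator with the smooth kernel `k` in the chart `c` -/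
def IsLO [FiniteDimensional ℂ V] (S : SB A V) (c : Fin A.N) (R : S.Sec →ₗ[ℂ] S.Sec)
    (k : C2 → C2 → (V →L[ℂ] V)) : Prop :=
  ∃ h : SKer A c k, R = LO S S c zero_lt4 h.lker

/-- K0: `ρ_a (1 - B_a ∂̄)` is smoothing, degree 0 -/
def K0 (a : Fin A.N) : Prop := ∃ k, (∀ x, k x x = 0) ∧ IsLO B.sb0 a
  ((mrho B.sb0 a).op ∘ₗ (LinearMap.id - G.B1 a ∘ₗ B.d0)) k

/-- K1: `ρ_a (1 - ∂̄ B_a - B_a ∂̄)` is smoothing, degree 1 -/
def K1 (a : Fin A.N) : Prop := ∃ k, (∀ x, k x x = 0) ∧ IsLO B.sb1 a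
  ((mrho B.sb1 a).op ∘ₗ (LinearMap.id - (B.d0 ∘ₗ G.B1 a + G.B2 a ∘ₗ B.d1))) k

/-- K2: `ρ_a (1 - ∂̄ B_a)` is smoothing, degree 2 -/
def K2 (a : Fin A.N) : Prop := ∃ k, (∀ x, k x x = 0) ∧ IsLO B.sb2 a
  ((mrho B.sb2 a).op ∘ₗ (LinearMap.id - B.d1 ∘ₗ G.B2 a)) k

/-- K3: `ρ_b ∂̄ρ_a (B_b - B_a - T_ab ∂̄)` is smoothing, degree 1 -/
def K3 (a b : Fin A.N) : Prop := ∃ k, (∀ x, k x x = 0) ∧ IsLO B.sb1 a
  (((mrho B.sb1 b).comp (wr0 B a)).op ∘ₗ (G.B1 b - G.B1 a - G.T a b ∘ₗ B.d1)) k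

/-- K4: `ρ_b ∂̄ρ_a ∧ (B_b - B_a + ∂̄ T_ab)` is smoothing, degree 2 -/
def K4 (a b : Fin A.N) : Prop := ∃ k, (∀ x, k x x = 0) ∧ IsLO B.sb2 a
  (((mrho B.sb2 b).comp (wr1 B a)).op ∘ₗ (G.B2 b - G.B2 a + B.d0 ∘ₗ G.T a b)) k

/-- the coefficient `ρ_c (∂̄ρ_b ∧ ∂̄ρ_a)` in the chart `a` -/
def cf (A : FinAt X) (a b c : Fin A.N) (z : C2) : ℂ :=
  rc A c a z * (dr A b a z 0 * dr A a a z 1 - dr A b a z 1 * dr A a a z 0)

/-- K5: `ρ_c ∂̄ρ_b ∧ ∂̄ρ_a (T_ab + T_bc + T_ca)` is smoothing, with the value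
`cst (r(T_bc, T_ab) + r(T_ca, T_ac))` on the diagonal -/
def K5 (a b c : Fin A.N) : Prop := ∃ k,
  (∀ x, k x x = ((cst : ℂ) * cf A a b c x) • (Tr.r (TT B b c) (TT B a b) (x, x) +
    Tr.r (TT B c a) (TT B a c) (x, x))) ∧
  IsLO B.sb2 a (((mrho B.sb2 c).comp ((wr1 B b).comp (wr0 B a))).op ∘ₗ
    (G.T a b + G.T b c + G.T c a)) k

end statements

end Vale.Agent.P267.H462
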