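import Vale.Agent.P267.H462.K3v

/-!
# P267 / H462: `K3`
-/

set_option linter.unusedSectionVars false

open scoped Manifold ContDiff ComplexConjugate Matrix
open MeasureTheory Set Filter Topology Metric

noncomputable section

namespace Vale.Agent.P267.H462

open Vale.Agent.P267.FL Vale.Agent.P267.RR Vale.Agent.P267.H551
open Vale.Agent.P267.H667 (IsCutoff kc cst)
open Vale.Agent.P267.H433 (Tr ee dbv bmk nn)

variable {X : Type*} [TopologicalSpace X] [ChartedSpace C2 X] {A : FinAt X}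
  {r : ℕ} {B : Bun A r} (G : Gl B)

/-! ### the operator `T ∂̄` and `∂̄ T` -/

/-- the kernel of `T ∂̄` -/
def Th3 (a b : Fin A.N) (j : Fin 2) (p : C2 × C2) : EA r :=
  -(dbv ((0, ee j) : C2 × C2) (fun p => (G.θ a b p : ℂ)) p • (TT B a b).C p) -
    G.θ a b p • Bf B a b (q3 A a b j) p + G.θ a b p • Ba r (ee j) p

/-- the kernel of `∂̄ T` -/
def Th4 (a b : Fin A.N) (j : Fin 2) (p : C2 × C2) : EA r :=
  dbv ((ee j, 0) : C2 × C2) (fun p => (G.θ a b p : ℂ)) p • (TT B a b).C p -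
    G.θ a b p • Bf B a b (q4 A a b j) p + G.θ a b p • Ba r (ee j) p

theorem r_smul (x : EA r) : (0 : ℝ) • x = 0 := zero_smul ℝ x

theorem Th3_off {a b : Fin A.N} {j : Fin 2} {p : C2 × C2} (hp : p ∉ tsupport (G.θ a b)) :
    Th3 G a b j p = 0 := by
  rw [Th3, dbv_eq_zero hp, image_eq_zero_of_notMem_tsupport hp, z_smul, r_smul, r_smul, neg_zero,
    sub_zero, add_zero]

theorem Th4_off {a b : Fin A.N} {j : Fin 2} {p : C2 × C2} (hp : p ∉ tsupport (G.θ a b)) :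
    Th4 G a b j p = 0 := by
  rw [Th4, dbv_eq_zero hp, image_eq_zero_of_notMem_tsupport hp, z_smul, r_smul, r_smul,
    sub_zero, add_zero]

theorem int3 {W : Type*} [NormedAddCommGroup W] [NormedSpace ℝ W] {f1 f2 f3 : C2 → W}
    (h1 : Integrable f1) (h2 : Integrable f2) (h3 : Integrable f3) :
    -(∫ w, f1 w) - (∫ w, f2 w) + (∫ w, f3 w) = ∫ w, (-f1 w - f2 w + f3 w) := by
  have e1 := integral_add (h1.neg.sub h2) h3
  have e2 := integral_sub h1.neg h2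
  have e3 := integral_neg (μ := volume) f1
  simp only [Pi.neg_apply, Pi.sub_apply] at e1 e2
  rw [e1, e2, e3]

theorem int3' {W : Type*} [NormedAddCommGroup W] [NormedSpace ℝ W] {f1 f2 f3 : C2 → W}
    (h1 : Integrable f1) (h2 : Integrable f2) (h3 : Integrable f3) :
    (∫ w, f1 w) - (∫ w, f2 w) + (∫ w, f3 w) = ∫ w, (f1 w - f2 w + f3 w) := by
  have e1 := integral_add (h1.sub h2) h3
  have e2 := integral_sub h1 h2
  simp only [Pi.sub_apply] at e1
  rw [e1, e2]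

section

variable [T2Space X] [IsManifold 𝓘(ℂ, C2) ω X]

theorem Th3_int (a b : Fin A.N) (j : Fin 2) {g : C2 → Fin r → ℂ} (hg : ContDiff ℝ ∞ g) (z : C2) :
    (Integrable fun w => Th3 G a b j (z, w) (g w)) ∧
    Tk volume (clmB : EA r →L[ℝ] (Fin r → ℂ) →L[ℝ] (Fin r → ℂ))
      (fun x y => G.θ a b (x, y) • (TT B a b).C (x, y)) (dbv (ee j) g) z =
      ∫ w, Th3 G a b j (z, w) (g w) := by
  have h := G.D_on a b
  have h4' : 2 < Module.finrank ℝ C2 := by rw [finrank4]; norm_num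
  have h4'' : 3 < Module.finrank ℝ C2 := by rw [finrank4]; norm_num
  have hw : ContDiffOn ℝ ∞ (fun p : C2 × C2 => fderiv ℂ (A.tau a b) p.2 (ee j)) (G.D a b) :=
    (q3_smooth a b j).mono (G.D_sub a b)
  have hg1 : ContDiff ℝ 1 g := hg.of_le (by exact_mod_cast le_top)
  have i1 := ((ker_E h (G.θ_smooth a b) (G.θ_comp a b) (G.θ_supp a b)
    ((0, ee j) : C2 × C2)).of_le (N' := 0) (by simp)).integrable_bil'
    volume (clmB : EA r →L[ℝ] (Fin r → ℂ) →L[ℝ] (Fin r → ℂ)) h4' hg.continuous z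
  have i2 := ((ker_Bf h (G.θ_smooth a b) (G.θ_comp a b) (G.θ_supp a b) hw).of_le
    (N' := 0) (by simp)).integrable_bil'
    volume (clmB : EA r →L[ℝ] (Fin r → ℂ) →L[ℝ] (Fin r → ℂ)) h4'' hg.continuous z
  have i3 := ((ker_Ba h (G.θ_smooth a b) (G.θ_comp a b) (G.θ_supp a b) (w := fun _ => ee j)
    contDiffOn_const).of_le (N' := 0) (by simp)).integrable_bil'
    volume (clmB : EA r →L[ℝ] (Fin r → ℂ) →L[ℝ] (Fin r → ℂ)) h4'' hg.continuous z
  have e := Tk_C_dbv h (G.θ_smooth a b) (G.θ_comp a b) (G.θ_supp a b) CB_clmB hg1 (ee j) z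
  refine ⟨(i1.neg.sub i2).add i3, ?_⟩
  rw [e]
  exact int3 i1 i2 i3

theorem Th4_int (a b : Fin A.N) (j : Fin 2) {g : C2 → Fin r → ℂ} (hg : ContDiff ℝ ∞ g) (z : C2) :
    (Integrable fun w => Th4 G a b j (z, w) (g w)) ∧
    dbv (ee j) (Tk volume (clmB : EA r →L[ℝ] (Fin r → ℂ) →L[ℝ] (Fin r → ℂ))
      (fun x y => G.θ a b (x, y) • (TT B a b).C (x, y)) g) z =
      ∫ w, Th4 G a b j (z, w) (g w) := by
  have h := G.D_on a b
  have h4' : 2 < Module.finrank ℝ C2 := by rw [finrank4]; norm_num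
  have h4'' : 3 < Module.finrank ℝ C2 := by rw [finrank4]; norm_num
  have hw : ContDiffOn ℝ ∞ (fun p : C2 × C2 => fderiv ℂ (A.tau a b) p.1 (ee j)) (G.D a b) :=
    (q4_smooth a b j).mono (G.D_sub a b)
  have hg1 : ContDiff ℝ 1 g := hg.of_le (by exact_mod_cast le_top)
  have i1 := ((ker_E h (G.θ_smooth a b) (G.θ_comp a b) (G.θ_supp a b)
    ((ee j, 0) : C2 × C2)).of_le (N' := 0) (by simp)).integrable_bil'
    volume (clmB : EA r →L[ℝ] (Fin r → ℂ) →L[ℝ] (Fin r → ℂ)) h4' hg.continuous z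
  have i2 := ((ker_Bf h (G.θ_smooth a b) (G.θ_comp a b) (G.θ_supp a b) hw).of_le
    (N' := 0) (by simp)).integrable_bil'
    volume (clmB : EA r →L[ℝ] (Fin r → ℂ) →L[ℝ] (Fin r → ℂ)) h4'' hg.continuous z
  have i3 := ((ker_Ba h (G.θ_smooth a b) (G.θ_comp a b) (G.θ_supp a b) (w := fun _ => ee j)
    contDiffOn_const).of_le (N' := 0) (by simp)).integrable_bil'
    volume (clmB : EA r →L[ℝ] (Fin r → ℂ) →L[ℝ] (Fin r → ℂ)) h4'' hg.continuous z
  have e := dbv_Tk_C h (G.θ_smooth a b) (G.θ_comp a b) (G.θ_supp a b) CB_clmB hg1 (ee j) z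
  refine ⟨(i1.sub i2).add i3, ?_⟩
  rw [e]
  exact int3' i1 i2 i3

theorem continuous_dbv {g : C2 → Fin r → ℂ} (hg : ContDiff ℝ ∞ g) (v : C2) :
    Continuous (dbv v g) := by
  unfold dbv
  have := (hg.of_le (m := 1) (by exact_mod_cast le_top)).continuous_fderiv one_ne_zero
  fun_prop

/-- the compact set of the second coordinates -/
theorem sndθ (a b : Fin A.N) : IsCompact (Prod.snd '' tsupport (G.θ a b)) ∧
    Prod.snd '' tsupport (G.θ a b) ⊆ A.O a := by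
  refine ⟨(G.θ_comp a b).isCompact.image continuous_snd, ?_⟩
  rintro _ ⟨p, hp, rfl⟩
  exact (G.D_sub a b (G.θ_supp a b hp)).2.1

/-- the value of `T ∂̄ u` -/
theorem T_d1 {a b : Fin A.N} {z : C2} (hz : z ∈ A.O a) (u : B.sb1.Sec) :
    (Integrable fun w => -((cst : ℂ) • (Th3 G a b 0 (z, w) (u.1 a w 1) -
      Th3 G a b 1 (z, w) (u.1 a w 0)))) ∧
    (G.T a b (B.d1 u)).1 a z = ∫ w, -((cst : ℂ) • (Th3 G a b 0 (z, w) (u.1 a w 1) -
      Th3 G a b 1 (z, w) (u.1 a w 0))) := by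
  obtain ⟨hL, hLO⟩ := sndθ G a b
  obtain ⟨g, hg, -, N, hN, hLN, hNO, hgu⟩ := exists_glob (A.isOpen_O a) hL hLO (sec_smooth u a)
  have hg' : ∀ i : Fin 2, ContDiff ℝ ∞ fun y => g y i := fun i => contDiff_pi.1 hg i
  have hgu' : ∀ (w : C2), (z, w) ∈ tsupport (G.θ a b) → w ∈ N := fun w hw =>
    hLN ⟨_, hw, rfl⟩
  have ef : (fun w => -((cst : ℂ) • (Th3 G a b 0 (z, w) (u.1 a w 1) -
      Th3 G a b 1 (z, w) (u.1 a w 0)))) = fun w => -((cst : ℂ) • (Th3 G a b 0 (z, w) (g w 1) -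
      Th3 G a b 1 (z, w) (g w 0))) := by
    funext w
    by_cases hw : (z, w) ∈ tsupport (G.θ a b)
    · rw [hgu w (hgu' w hw)]
    · rw [Th3_off G hw, Th3_off G hw]
      rfl
  obtain ⟨i0, e0⟩ := Th3_int G a b 0 (hg' 1) z
  obtain ⟨i1, e1⟩ := Th3_int G a b 1 (hg' 0) z
  rw [ef]
  refine ⟨((i0.sub i1).smul (cst : ℂ)).neg, ?_⟩
  rw [integral_neg, integral_smul, integral_sub i0 i1, ← e0, ← e1]
  have e2 : (G.T a b (B.d1 u)).1 a z = ∫ w, -((cst : ℂ) •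
      ((clmB : EA r →L[ℝ] (Fin r → ℂ) →L[ℝ] (Fin r → ℂ)) (G.θ a b (z, w) • (TT B a b).C (z, w))
        (dbv (ee 0) (fun y => g y 1) w) -
      (clmB : EA r →L[ℝ] (Fin r → ℂ) →L[ℝ] (Fin r → ℂ)) (G.θ a b (z, w) • (TT B a b).C (z, w))
        (dbv (ee 1) (fun y => g y 0) w))) := by
    rw [Gl.T, LO_self a two_lt (G.lkT a b) _ hz, IK]
    congr 1
    funext w
    by_cases hw : (z, w) ∈ tsupport (G.θ a b)
    · have hwN := hgu' w hw
      have hwO : w ∈ A.O a := hNO hwN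
      have hev : ∀ i : Fin 2, (fun y => u.1 a y i) =ᶠ[𝓝 w] fun y => g y i := by
        intro i
        filter_upwards [hN.mem_nhds hwN] with y hy
        rw [hgu y hy]
      rw [d1_apply B u hwO, dzb_congr (hev 1), dzb_congr (hev 0), dzb_eq_dbv, dzb_eq_dbv]
      simp only [Gl.kT, smul_apply, clmB_apply, map_sub, neg_smul, smul_sub, neg_sub]
      abel
    · have h0 : G.θ a b (z, w) = 0 := image_eq_zero_of_notMem_tsupport hw
      rw [Gl.kT, h0, r_smul]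
      simp
  have hk : Ker 0 2 fun x y : C2 => G.θ a b (x, y) • (TT B a b).C (x, y) :=
    (ker_C (G.D_on a b) (G.θ_smooth a b) (G.θ_comp a b) (G.θ_supp a b)).of_le (by simp)
  have h4' : 2 < Module.finrank ℝ C2 := by rw [finrank4]; norm_num
  have hc : ∀ i j : Fin 2, Continuous (dbv (ee j) fun y => g y i) := fun i j =>
    continuous_dbv (hg' i) _
  rw [e2, integral_neg, integral_smul, integral_sub
    (hk.integrable_bil' volume (clmB : EA r →L[ℝ] (Fin r → ℂ) →L[ℝ] (Fin r → ℂ)) h4' (hc 1 0) z)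
    (hk.integrable_bil' volume (clmB : EA r →L[ℝ] (Fin r → ℂ) →L[ℝ] (Fin r → ℂ)) h4' (hc 0 1) z)]
  rfl

/-- the value of `∂̄ T v` -/
theorem d0_T {a b : Fin A.N} {z : C2} (hz : z ∈ A.O a) (v : B.sb2.Sec) (j : Fin 2) :
    (Integrable fun w => -((cst : ℂ) • Th4 G a b j (z, w) (v.1 a w))) ∧
    (B.d0 (G.T a b v)).1 a z j = ∫ w, -((cst : ℂ) • Th4 G a b j (z, w) (v.1 a w)) := by
  obtain ⟨hL, hLO⟩ := sndθ G a b
  obtain ⟨g, hg, -, N, hN, hLN, hNO, hgu⟩ := exists_glob (A.isOpen_O a) hL hLO (sec_smooth v a)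
  have hgu' : ∀ (z w : C2), (z, w) ∈ tsupport (G.θ a b) → w ∈ N := fun z w hw =>
    hLN ⟨_, hw, rfl⟩
  have ef : (fun w => -((cst : ℂ) • Th4 G a b j (z, w) (v.1 a w))) =
      fun w => -((cst : ℂ) • Th4 G a b j (z, w) (g w)) := by
    funext w
    by_cases hw : (z, w) ∈ tsupport (G.θ a b)
    · rw [hgu w (hgu' z w hw)]
    · rw [Th4_off G hw]
      rfl
  obtain ⟨i0, e0⟩ := Th4_int G a b j hg z
  rw [ef]
  refine ⟨(i0.smul (cst : ℂ)).neg, ?_⟩
  rw [integral_neg, integral_smul, ← e0]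
  have hk : Ker ∞ 2 fun x y : C2 => G.θ a b (x, y) • (TT B a b).C (x, y) :=
    ker_C (G.D_on a b) (G.θ_smooth a b) (G.θ_comp a b) (G.θ_supp a b)
  have h4' : 2 < Module.finrank ℝ C2 := by rw [finrank4]; norm_num
  have e2 : (G.T a b v).1 a =ᶠ[𝓝 z] fun x => (-(cst : ℂ)) •
      Tk volume (clmB : EA r →L[ℝ] (Fin r → ℂ) →L[ℝ] (Fin r → ℂ))
        (fun x y => G.θ a b (x, y) • (TT B a b).C (x, y)) g x := by
    filter_upwards [(A.isOpen_O a).mem_nhds hz] with x hx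
    rw [Gl.T, LO_self a two_lt (G.lkT a b) _ hx, IK, Tk, ← integral_smul]
    congr 1
    funext w
    by_cases hw : (x, w) ∈ tsupport (G.θ a b)
    · rw [hgu w (hgu' x w hw)]
      rfl
    · have h0 : G.θ a b (x, w) = 0 := image_eq_zero_of_notMem_tsupport hw
      rw [Gl.kT, h0, r_smul]
      simp
  have hT : ContDiff ℝ ∞ (Tk volume (clmB : EA r →L[ℝ] (Fin r → ℂ) →L[ℝ] (Fin r → ℂ))
      (fun x y => G.θ a b (x, y) • (TT B a b).C (x, y)) g) := hk.contDiff_Tk volume _ h4' hg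
  rw [d0_apply B _ hz, dzb_congr e2, dzb_const_smul _ ((hT.differentiable (by simp)) z) j,
    dzb_eq_dbv, neg_smul]

/-! ### values of `B1 b`, `B2 b` -/

/-- the kernel of `B1 b` in the chart `a` -/
theorem B1_tr {a b : Fin A.N} {z : C2} (hz : z ∈ im A a (sp A a ∩ sp A b)) (u : B.sb1.Sec) :
    (Integrable fun w => ((etf G a b (z, w) : ℝ) : ℂ) • ((cst : ℂ) •
      (Bf B a b (q3 A a b 0) (z, w) (u.1 a w 1) - Bf B a b (q3 A a b 1) (z, w) (u.1 a w 0)))) ∧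
    (G.B1 b u).1 a z = ∫ w, ((etf G a b (z, w) : ℝ) : ℂ) • ((cst : ℂ) •
      (Bf B a b (q3 A a b 0) (z, w) (u.1 a w 1) -
        Bf B a b (q3 A a b 1) (z, w) (u.1 a w 0))) := by
  have hχ : G.χ b (A.tau a b z) = 1 := χ_K G (im_K (im_tau hz))
  have hk : ∀ w, G.kB1 b (A.tau a b z) w ≠ 0 → w ∈ A.ov b a := by
    intro w hw
    refine im_ball G (im_tau hz) ?_
    by_contra hne
    apply hw
    have h0 : G.η (A.tau a b z - w) = 0 := by
      by_contra h1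
      apply hne
      have h2 := G.η_supp (subset_tsupport _ h1)
      rw [mem_closedBall_zero_iff, norm_sub_rev] at h2
      rwa [mem_closedBall, dist_eq_norm]
    ext U
    rw [kB1_apply G hχ, h0]
    simp
  have e : (fun w => trK B.sb1 B.sb0 a b (G.kB1 b) z w (u.1 a w)) = fun w =>
      ((etf G a b (z, w) : ℝ) : ℂ) • ((cst : ℂ) •
      (Bf B a b (q3 A a b 0) (z, w) (u.1 a w 1) - Bf B a b (q3 A a b 1) (z, w) (u.1 a w 0))) := by
    funext w
    exact trK_kB1 G hχ w _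
  rw [← e]
  refine ⟨trK_integrable hk u ((G.lkB1 b).integrable three_lt (sec_smooth u b) _), ?_⟩
  rw [Gl.B1]
  exact LO_transport three_lt (G.lkB1 b) (im_ov hz) hk u

theorem B1_self {a : Fin A.N} {z : C2} (hz : z ∈ A.K a) (u : B.sb1.Sec) :
    (Integrable fun w => ((G.η (z - w) : ℝ) : ℂ) • ((cst : ℂ) •
      (Ba r (ee 0) (z, w) (u.1 a w 1) - Ba r (ee 1) (z, w) (u.1 a w 0)))) ∧
    (G.B1 a u).1 a z = ∫ w, ((G.η (z - w) : ℝ) : ℂ) • ((cst : ℂ) •
      (Ba r (ee 0) (z, w) (u.1 a w 1) - Ba r (ee 1) (z, w) (u.1 a w 0))) := by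
  have e : (fun w => G.kB1 a z w (u.1 a w)) = fun w => ((G.η (z - w) : ℝ) : ℂ) • ((cst : ℂ) •
      (Ba r (ee 0) (z, w) (u.1 a w 1) - Ba r (ee 1) (z, w) (u.1 a w 0))) := by
    funext w
    exact kB1_apply G (χ_K G hz) _
  rw [← e]
  refine ⟨(G.lkB1 a).integrable three_lt (sec_smooth u a) z, ?_⟩
  rw [Gl.B1, LO_self a three_lt (G.lkB1 a) _ (K_sub a hz)]
  rfl

/-- the kernel of `B2 b` in the chart `a` -/
theorem B2_tr {a b : Fin A.N} {z : C2} (hz : z ∈ im A a (sp A a ∩ sp A b)) (v : B.sb2.Sec)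
    (j : Fin 2) :
    (Integrable fun w => -(((etf G a b (z, w) : ℝ) : ℂ) • ((cst : ℂ) •
      (Bf B a b (q4 A a b j) (z, w) (v.1 a w))))) ∧
    (G.B2 b v).1 a z j = ∫ w, -(((etf G a b (z, w) : ℝ) : ℂ) • ((cst : ℂ) •
      (Bf B a b (q4 A a b j) (z, w) (v.1 a w)))) := by
  have hχ : G.χ b (A.tau a b z) = 1 := χ_K G (im_K (im_tau hz))
  have hk : ∀ w, G.kB2 b (A.tau a b z) w ≠ 0 → w ∈ A.ov b a := by
    intro w hw
    refine im_ball G (im_tau hz) ?_
    by_contra hne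
    apply hw
    have h0 : G.η (A.tau a b z - w) = 0 := by
      by_contra h1
      apply hne
      have h2 := G.η_supp (subset_tsupport _ h1)
      rw [mem_closedBall_zero_iff, norm_sub_rev] at h2
      rwa [mem_closedBall, dist_eq_norm]
    ext U p
    rw [kB2_apply G hχ, h0]
    simp
  have hi := trK_integrable (S := B.sb2) (S' := B.sb1) hk v
    ((G.lkB2 b).integrable three_lt (sec_smooth v b) _)
  have e : (fun w => trK B.sb2 B.sb1 a b (G.kB2 b) z w (v.1 a w) j) = fun w =>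
      -(((etf G a b (z, w) : ℝ) : ℂ) • ((cst : ℂ) •
      (Bf B a b (q4 A a b j) (z, w) (v.1 a w)))) := by
    funext w
    exact trK_kB2 G (im_ov hz) hχ w _ j
  rw [← e]
  refine ⟨(ContinuousLinearMap.proj (R := ℝ) (φ := fun _ : Fin 2 => Fin r → ℂ)
    j).integrable_comp hi, ?_⟩
  rw [Gl.B2, LO_transport three_lt (G.lkB2 b) (im_ov hz) hk v]
  exact ((ContinuousLinearMap.proj (R := ℝ) (φ := fun _ : Fin 2 => Fin r → ℂ)
    j).integral_comp_comm hi).symm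

theorem B2_self {a : Fin A.N} {z : C2} (hz : z ∈ A.K a) (v : B.sb2.Sec) (j : Fin 2) :
    (Integrable fun w => -(((G.η (z - w) : ℝ) : ℂ) • ((cst : ℂ) •
      (Ba r (ee j) (z, w) (v.1 a w))))) ∧
    (G.B2 a v).1 a z j = ∫ w, -(((G.η (z - w) : ℝ) : ℂ) • ((cst : ℂ) •
      (Ba r (ee j) (z, w) (v.1 a w)))) := by
  have hi := (G.lkB2 a).integrable three_lt (sec_smooth v a) z
  have e : (fun w => G.kB2 a z w (v.1 a w) j) = fun w => -(((G.η (z - w) : ℝ) : ℂ) • ((cst : ℂ) •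
      (Ba r (ee j) (z, w) (v.1 a w)))) := by
    funext w
    exact kB2_apply G (χ_K G hz) _ j
  rw [← e]
  refine ⟨(ContinuousLinearMap.proj (R := ℝ) (φ := fun _ : Fin 2 => Fin r → ℂ)
    j).integrable_comp hi, ?_⟩
  rw [Gl.B2, LO_self a three_lt (G.lkB2 a) _ (K_sub a hz)]
  exact ((ContinuousLinearMap.proj (R := ℝ) (φ := fun _ : Fin 2 => Fin r → ℂ)
    j).integral_comp_comm hi).symm

end

end Vale.Agent.P267.H462
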