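import Vale.Agent.P267.H462.K3

/-!
# P267 / H462: `K3` and `K4`
-/

set_option linter.unusedSectionVars false

open scoped Manifold ContDiff ComplexConjugate Matrix
open MeasureTheory Set Filter Topology Metric

noncomputable section

namespace Vale.Agent.P267.H462

open Vale.Agent.P267.FL Vale.Agent.P267.RR Vale.Agent.P267.H551
open Vale.Agent.P267.H667 (IsCutoff kc cst)
open Vale.Agent.P267.H433 (Tr ee dbv bmk nn)

variable {X : Type*} [TopologicalSpace X] [ChartedSpace C2 X] {A : FinAt X}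
  {V : Type} [NormedAddCommGroup V] [NormedSpace ℂ V]
  {W : Type} [NormedAddCommGroup W] [NormedSpace ℂ W]

section sk

variable [T2Space X] [IsManifold 𝓘(ℂ, C2) ω X] [FiniteDimensional ℂ V] [FiniteDimensional ℂ W]

/-- a smooth kernel, cut off by a bundle map -/
theorem sker_of {S : SB A W} {S' : SB A V} (Φ : BM S S') {a : Fin A.N} {N : Set X}
    (hNc : IsCompact (im A a N)) (hN : N ⊆ A.U a)
    (hΦ : ∀ b, ∀ z ∈ A.O b, (A.e b).symm z ∉ N → Φ.φ b z = 0) (κ : C2 × C2 → V →L[ℂ] W)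
    (hκ : ∀ z ∈ im A a N, ∀ w, ContDiffAt ℝ ∞ κ (z, w)) {L : Set C2} (hL : IsCompact L)
    (hLO : L ⊆ A.O a) (hs : ∀ z ∈ im A a N, ∀ w, κ (z, w) ≠ 0 → w ∈ L) :
    SKer A a (fun z w => (Φ.φ a z).comp (κ (z, w))) := by
  have h0 : ∀ z, z ∉ im A a N → Φ.φ a z = 0 := by
    intro z hz
    by_cases hzO : z ∈ A.O a
    · exact hΦ a z hzO fun h => hz ((mem_im_iff hN).2 ⟨hzO, h⟩)
    · exact Φ.off a z hzO
  constructor
  · rw [contDiff_iff_contDiffAt]
    rintro ⟨z, w⟩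
    by_cases hz : z ∈ im A a N
    · have h1 : ContDiffAt ℝ ∞ (fun p : C2 × C2 => Φ.φ a p.1) (z, w) :=
        ((Φ.smooth a).contDiffAt ((A.isOpen_O a).mem_nhds (im_sub hN hz))).comp (z, w)
          contDiffAt_fst
      exact contDiff_comp_clm.contDiffAt.comp (z, w) (h1.prodMk (hκ z hz w))
    · have h1 : (fun p : C2 × C2 => (Φ.φ a p.1).comp (κ (p.1, p.2))) =ᶠ[𝓝 (z, w)]
          fun _ => 0 := by
        have h2 : ∀ᶠ p in 𝓝 ((z, w) : C2 × C2), p.1 ∈ (im A a N)ᶜ :=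
          continuousAt_fst.eventually (hNc.isClosed.isOpen_compl.mem_nhds hz)
        filter_upwards [h2] with p hp
        rw [h0 p.1 hp, ContinuousLinearMap.zero_comp]
      exact contDiffAt_const.congr_of_eventuallyEq h1
  · refine ⟨im A a N ∪ L, hNc.union hL, union_subset (im_sub hN) hLO, fun z w h => ?_⟩
    have hz : z ∈ im A a N := by
      by_contra hz
      apply h
      rw [h0 z hz, ContinuousLinearMap.zero_comp]
    refine ⟨Or.inl hz, Or.inr (hs z hz w fun h1 => h ?_)⟩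
    rw [h1, ContinuousLinearMap.comp_zero]

theorem int_of {a : Fin A.N} {z : C2} {κ : C2 × C2 → V →L[ℂ] W}
    (hκ : ∀ w, ContDiffAt ℝ ∞ κ (z, w)) {L : Set C2} (hL : IsCompact L) (hLO : L ⊆ A.O a)
    (hs : ∀ w, κ (z, w) ≠ 0 → w ∈ L) {u : C2 → V} (hu : ContDiffOn ℝ ∞ u (A.O a)) :
    Integrable fun w => κ (z, w) (u w) := by
  refine integrable_of_supp (A.isOpen_O a) hL hLO ?_ fun w hw => ?_
  · refine ContinuousOn.clm_apply (fun w _ => ?_) hu.continuousOn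
    have h1 : ContinuousAt κ (z, w) := (hκ w).continuousAt
    exact (h1.comp (x := w) (f := fun w : C2 => (z, w)) (by fun_prop)).continuousWithinAt
  · have : κ (z, w) = 0 := by
      by_contra h
      exact hw (hs w h)
    rw [this]
    rfl

end sk

variable {r : ℕ} {B : Bun A r} (G : Gl B)

theorem QQ_apply (a b : Fin A.N) (q : C2 × C2 → C2) (v : C2) (c : ℂ) (δ p : C2 × C2)
    (x : Fin r → ℂ) : QQ G a b q v c δ p x =
      ((etf G a b p - G.θ a b p : ℝ) : ℂ) • Bf B a b q p x -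
      ((G.η (p.1 - p.2) - G.θ a b p : ℝ) : ℂ) • Ba r v p x + psi G a b c δ p • (TT B a b).C p x :=
  rfl

/-- the kernel of `B_b - B_a - T ∂̄` -/
def ka3 (a b : Fin A.N) (p : C2 × C2) : (Fin 2 → Fin r → ℂ) →L[ℂ] (Fin r → ℂ) :=
  (cst : ℂ) • (((QQ G a b (q3 A a b 0) (ee 0) (-1) (0, ee 0) p).comp
      (ContinuousLinearMap.proj 1)) -
    ((QQ G a b (q3 A a b 1) (ee 1) (-1) (0, ee 1) p).comp (ContinuousLinearMap.proj 0)))

/-- the kernel of `B_b - B_a + ∂̄ T` -/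
def ka4 (a b : Fin A.N) (p : C2 × C2) : (Fin r → ℂ) →L[ℂ] (Fin 2 → Fin r → ℂ) :=
  ContinuousLinearMap.pi fun j => (-(cst : ℂ)) • QQ G a b (q4 A a b j) (ee j) 1 (ee j, 0) p

theorem ka3_apply (a b : Fin A.N) (p : C2 × C2) (U : Fin 2 → Fin r → ℂ) :
    ka3 G a b p U = (cst : ℂ) • (QQ G a b (q3 A a b 0) (ee 0) (-1) (0, ee 0) p (U 1) -
      QQ G a b (q3 A a b 1) (ee 1) (-1) (0, ee 1) p (U 0)) := rfl

theorem ka4_apply (a b : Fin A.N) (p : C2 × C2) (U : Fin r → ℂ) (j : Fin 2) :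
    ka4 G a b p U j = (-(cst : ℂ)) • QQ G a b (q4 A a b j) (ee j) 1 (ee j, 0) p U := rfl

section main

variable [T2Space X] [IsManifold 𝓘(ℂ, C2) ω X]

theorem ka3_smooth {a b : Fin A.N} {z : C2} (hz : z ∈ im A a (sp A a ∩ sp A b)) (w : C2) :
    ContDiffAt ℝ ∞ (ka3 G a b) (z, w) := by
  have h0 := QQ_smooth (G := G) (v := ee 0) (c := -1) (δ := (0, ee 0)) (q3_smooth a b 0) hz w
  have h1 := QQ_smooth (G := G) (v := ee 1) (c := -1) (δ := (0, ee 1)) (q3_smooth a b 1) hz w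
  refine contDiffAt_clm_of_apply fun U => ?_
  have e : ∀ (x : Fin r → ℂ) {Q : C2 × C2 → EA r}, ContDiffAt ℝ ∞ Q (z, w) →
      ContDiffAt ℝ ∞ (fun p => Q p x) (z, w) := fun x Q hQ =>
    contDiff_apply_clm.contDiffAt.comp (z, w) (hQ.prodMk contDiffAt_const)
  exact ((e (U 1) h0).sub (e (U 0) h1)).const_smul (cst : ℂ)

theorem ka4_smooth {a b : Fin A.N} {z : C2} (hz : z ∈ im A a (sp A a ∩ sp A b)) (w : C2) :
    ContDiffAt ℝ ∞ (ka4 G a b) (z, w) := by
  refine contDiffAt_clm_of_apply fun U => ?_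
  rw [contDiffAt_pi]
  intro j
  have h0 := QQ_smooth (G := G) (v := ee j) (c := 1) (δ := (ee j, 0)) (q4_smooth a b j) hz w
  have e : ContDiffAt ℝ ∞ (fun p => QQ G a b (q4 A a b j) (ee j) 1 (ee j, 0) p U) (z, w) :=
    contDiff_apply_clm.contDiffAt.comp (z, w) (h0.prodMk contDiffAt_const)
  exact e.const_smul (-(cst : ℂ))

theorem ka3_supp {a b : Fin A.N} {z : C2} (hz : z ∈ im A a (sp A a ∩ sp A b)) (w : C2)
    (h : ka3 G a b (z, w) ≠ 0) : w ∈ LQ G a b := by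
  by_contra hw
  apply h
  have h0 : ∀ j, QQ G a b (q3 A a b j) (ee j) (-1) (0, ee j) (z, w) = 0 := by
    intro j
    by_contra hne
    exact hw (QQ_supp hz hne)
  refine ContinuousLinearMap.ext fun U => ?_
  rw [ka3_apply, h0, h0]
  simp

theorem ka4_supp {a b : Fin A.N} {z : C2} (hz : z ∈ im A a (sp A a ∩ sp A b)) (w : C2)
    (h : ka4 G a b (z, w) ≠ 0) : w ∈ LQ G a b := by
  by_contra hw
  apply h
  have h0 : ∀ j, QQ G a b (q4 A a b j) (ee j) 1 (ee j, 0) (z, w) = 0 := by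
    intro j
    by_contra hne
    exact hw (QQ_supp hz hne)
  refine ContinuousLinearMap.ext fun U => ?_
  funext j
  rw [ka4_apply, h0]
  simp

theorem ka3_diag {a b : Fin A.N} {z : C2} (hz : z ∈ im A a (sp A a ∩ sp A b)) :
    ka3 G a b (z, z) = 0 := by
  refine ContinuousLinearMap.ext fun U => ?_
  rw [ka3_apply, (QQ_diag (G := G) hz).self_of_nhds, (QQ_diag (G := G) hz).self_of_nhds]
  simp

theorem ka4_diag {a b : Fin A.N} {z : C2} (hz : z ∈ im A a (sp A a ∩ sp A b)) :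
    ka4 G a b (z, z) = 0 := by
  refine ContinuousLinearMap.ext fun U => ?_
  funext j
  rw [ka4_apply, (QQ_diag (G := G) hz).self_of_nhds]
  simp

theorem int3s {W : Type*} [NormedAddCommGroup W] [NormedSpace ℝ W] {f1 f2 f3 : C2 → W}
    (h1 : Integrable f1) (h2 : Integrable f2) (h3 : Integrable f3) :
    (∫ w, f1 w) - (∫ w, f2 w) - (∫ w, f3 w) = ∫ w, (f1 w - f2 w - f3 w) := by
  have e1 := integral_sub (h1.sub h2) h3
  have e2 := integral_sub h1 h2
  simp only [Pi.sub_apply] at e1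
  rw [e1, e2]

omit [T2Space X] [IsManifold 𝓘(ℂ, C2) ω X] in
theorem Th3_apply (a b : Fin A.N) (j : Fin 2) (p : C2 × C2) (x : Fin r → ℂ) :
    Th3 G a b j p x = -(dbv ((0, ee j) : C2 × C2) (fun p => (G.θ a b p : ℂ)) p •
      (TT B a b).C p x) - (G.θ a b p : ℂ) • Bf B a b (q3 A a b j) p x +
      (G.θ a b p : ℂ) • Ba r (ee j) p x := by
  rw [Complex.coe_smul, Complex.coe_smul]
  rfl

omit [T2Space X] [IsManifold 𝓘(ℂ, C2) ω X] in
theorem Th4_apply (a b : Fin A.N) (j : Fin 2) (p : C2 × C2) (x : Fin r → ℂ) :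
    Th4 G a b j p x = dbv ((ee j, 0) : C2 × C2) (fun p => (G.θ a b p : ℂ)) p •
      (TT B a b).C p x - (G.θ a b p : ℂ) • Bf B a b (q4 A a b j) p x +
      (G.θ a b p : ℂ) • Ba r (ee j) p x := by
  rw [Complex.coe_smul, Complex.coe_smul]
  rfl

theorem val3 {a b : Fin A.N} {z : C2} (hz : z ∈ im A a (sp A a ∩ sp A b)) (u : B.sb1.Sec) :
    ((G.B1 b - G.B1 a - G.T a b ∘ₗ B.d1) u).1 a z = ∫ w, ka3 G a b (z, w) (u.1 a w) := by
  obtain ⟨i1, e1⟩ := B1_tr G hz u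
  obtain ⟨i2, e2⟩ := B1_self G (im_K hz) u
  obtain ⟨i3, e3⟩ := T_d1 G (a := a) (b := b) (im_ov hz).1 u
  change (G.B1 b u).1 a z - (G.B1 a u).1 a z - (G.T a b (B.d1 u)).1 a z = _
  rw [e1, e2, e3, int3s i1 i2 i3]
  congr 1
  funext w
  rw [ka3_apply, QQ_apply, QQ_apply, Th3_apply, Th3_apply, psi, psi]
  push_cast
  module

theorem val4 {a b : Fin A.N} {z : C2} (hz : z ∈ im A a (sp A a ∩ sp A b)) (v : B.sb2.Sec)
    (hi : Integrable fun w => ka4 G a b (z, w) (v.1 a w)) :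
    ((G.B2 b - G.B2 a + B.d0 ∘ₗ G.T a b) v).1 a z = ∫ w, ka4 G a b (z, w) (v.1 a w) := by
  funext j
  obtain ⟨i1, e1⟩ := B2_tr G hz v j
  obtain ⟨i2, e2⟩ := B2_self G (im_K hz) v j
  obtain ⟨i3, e3⟩ := d0_T G (a := a) (b := b) (im_ov hz).1 v j
  change (G.B2 b v).1 a z j - (G.B2 a v).1 a z j + (B.d0 (G.T a b v)).1 a z j = _
  have e4 : (∫ w, ka4 G a b (z, w) (v.1 a w)) j = ∫ w, ka4 G a b (z, w) (v.1 a w) j :=
    ((ContinuousLinearMap.proj (R := ℝ) (φ := fun _ : Fin 2 => Fin r → ℂ)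
      j).integral_comp_comm hi).symm
  rw [e1, e2, e3, e4, int3' i1 i2 i3]
  congr 1
  funext w
  rw [ka4_apply, QQ_apply, Th4_apply, psi]
  push_cast
  module

/-! ### the theorems -/

/-- **`K3`** -/
theorem k3 [CompactSpace X] (a b : Fin A.N) : K3 G a b := by
  have hN : sp A a ∩ sp A b ⊆ A.U a := inter_subset_left.trans (A.rho_supp a)
  have hΦ : ∀ c, ∀ z ∈ A.O c, (A.e c).symm z ∉ sp A a ∩ sp A b →
      ((mrho B.sb1 b).comp (wr0 B a)).φ c z = 0 := by
    intro c z hz h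
    refine ContinuousLinearMap.ext fun U => ?_
    change rc A b c z • (wr0 B a).φ c z U = 0
    by_cases hb : (A.e c).symm z ∈ sp A b
    · have ha : (A.e c).symm z ∉ sp A a := fun ha => h ⟨ha, hb⟩
      funext i
      change rc A b c z • (dr A a c z i • U) = 0
      rw [dr_zero hz ha, zero_smul, smul_zero]
    · rw [rc_zero hz hb, zero_smul]
  have hs := sker_of ((mrho B.sb1 b).comp (wr0 B a)) (a := a) (isCompact_sp a b) hN hΦ
    (ka3 G a b) (fun z hz w => ka3_smooth G hz w) (LQ_compact G a b) (LQ_sub G a b)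
    (fun z hz w h => ka3_supp G hz w h)
  refine ⟨fun z w => (((mrho B.sb1 b).comp (wr0 B a)).φ a z).comp (ka3 G a b (z, w)),
    fun x => ?_, hs, ?_⟩
  · beta_reduce
    by_cases hx : x ∈ im A a (sp A a ∩ sp A b)
    · rw [ka3_diag G hx, ContinuousLinearMap.comp_zero]
    · by_cases hxO : x ∈ A.O a
      · rw [hΦ a x hxO fun h => hx ((mem_im_iff hN).2 ⟨hxO, h⟩), ContinuousLinearMap.zero_comp]
      · rw [BM.off _ a x hxO, ContinuousLinearMap.zero_comp]
  · exact op_comp_eq_LO a hN _ hΦ _ (fun z w => ka3 G a b (z, w)) zero_lt4 hs.lker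
      (fun u z hz => int_of (fun w => ka3_smooth G hz w) (LQ_compact G a b) (LQ_sub G a b)
        (fun w h => ka3_supp G hz w h) (sec_smooth u a)) fun u z hz => val3 G hz u

/-- **`K4`** -/
theorem k4 [CompactSpace X] (a b : Fin A.N) : K4 G a b := by
  have hN : sp A a ∩ sp A b ⊆ A.U a := inter_subset_left.trans (A.rho_supp a)
  have hΦ : ∀ c, ∀ z ∈ A.O c, (A.e c).symm z ∉ sp A a ∩ sp A b →
      ((mrho B.sb2 b).comp (wr1 B a)).φ c z = 0 := by
    intro c z hz h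
    refine ContinuousLinearMap.ext fun U => ?_
    change rc A b c z • (dr A a c z 0 • U 1 - dr A a c z 1 • U 0) = 0
    by_cases hb : (A.e c).symm z ∈ sp A b
    · have ha : (A.e c).symm z ∉ sp A a := fun ha => h ⟨ha, hb⟩
      rw [dr_zero hz ha, dr_zero hz ha, zero_smul, zero_smul, sub_zero, smul_zero]
    · rw [rc_zero hz hb, zero_smul]
  have hs := sker_of ((mrho B.sb2 b).comp (wr1 B a)) (a := a) (isCompact_sp a b) hN hΦ
    (ka4 G a b) (fun z hz w => ka4_smooth G hz w) (LQ_compact G a b) (LQ_sub G a b)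
    (fun z hz w h => ka4_supp G hz w h)
  have hint : ∀ (v : B.sb2.Sec), ∀ z ∈ im A a (sp A a ∩ sp A b),
      Integrable fun w => ka4 G a b (z, w) (v.1 a w) := fun u z hz =>
    int_of (fun w => ka4_smooth G hz w) (LQ_compact G a b) (LQ_sub G a b)
      (fun w h => ka4_supp G hz w h) (sec_smooth u a)
  refine ⟨fun z w => (((mrho B.sb2 b).comp (wr1 B a)).φ a z).comp (ka4 G a b (z, w)),
    fun x => ?_, hs, ?_⟩
  · beta_reduce
    by_cases hx : x ∈ im A a (sp A a ∩ sp A b)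
    · rw [ka4_diag G hx, ContinuousLinearMap.comp_zero]
    · by_cases hxO : x ∈ A.O a
      · rw [hΦ a x hxO fun h => hx ((mem_im_iff hN).2 ⟨hxO, h⟩), ContinuousLinearMap.zero_comp]
      · rw [BM.off _ a x hxO, ContinuousLinearMap.zero_comp]
  · exact op_comp_eq_LO a hN _ hΦ _ (fun z w => ka4 G a b (z, w)) zero_lt4 hs.lker
      hint fun u z hz => val4 G hz u (hint u z hz)

end main

end Vale.Agent.P267.H462
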