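import Vale.Agent.P267.H462.Qk

/-!
# P267 / H462: values of `B1 b`, `B2 b` in the chart `a`
-/

set_option linter.unusedSectionVars false

open scoped Manifold ContDiff ComplexConjugate Matrix
open MeasureTheory Set Filter Topology Metric

noncomputable section

namespace Vale.Agent.P267.H462

open Vale.Agent.P267.FL Vale.Agent.P267.RR Vale.Agent.P267.H551
open Vale.Agent.P267.H667 (IsCutoff kc cst)
open Vale.Agent.P267.H433 (Tr ee dbv bmk nn)

variable {X : Type*} [TopologicalSpace X] [ChartedSpace C2 X] {A : FinAt X}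
  {r : ℕ} {B : Bun A r} (G : Gl B)

theorem bmk_lin (s w : C2) : bmk s w = conj (w 0) * bmk s (ee 0) + conj (w 1) * bmk s (ee 1) := by
  simp [bmk, ee]
  ring

theorem χ_K {a : Fin A.N} {z : C2} (hz : z ∈ A.K a) : G.χ a z = 1 :=
  (G.χ_cut_K a hz).self_of_nhds

theorem im_K {a b : Fin A.N} {z : C2} (hz : z ∈ im A a (sp A a ∩ sp A b)) : z ∈ A.K a := by
  obtain ⟨x, hx, rfl⟩ := hz
  exact ⟨x, hx.1, rfl⟩

theorem kc_bk (j : Fin 2) (s : C2) : kc G.η j s = (G.η s : ℂ) * (cst * bk s j) := by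
  rw [kc, K_eq]
  try rfl

theorem kB1_apply {a : Fin A.N} {z w : C2} (hχ : G.χ a z = 1) (U : Fin 2 → Fin r → ℂ) :
    G.kB1 a z w U = (G.η (z - w) : ℂ) • ((cst : ℂ) • (bmk (w - z) (ee 0) • U 1 -
      bmk (w - z) (ee 1) • U 0)) := by
  have h0 := (bmk_ee (w - z)).1
  have h1 := (bmk_ee (w - z)).2
  rw [← neg_sub z w, bk_neg] at h0 h1
  rw [← neg_sub z w, h0, h1]
  simp only [Gl.kB1, FunLike.coe_sum, Finset.sum_apply, Fin.sum_univ_two, smul_apply,
    ContinuousLinearMap.proj_apply, hχ, kc_bk]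
  funext i
  simp
  ring

theorem kB2_apply {a : Fin A.N} {z w : C2} (hχ : G.χ a z = 1) (U : Fin r → ℂ) (p : Fin 2) :
    G.kB2 a z w U p = -((G.η (z - w) : ℂ) • ((cst : ℂ) • (bmk (w - z) (ee p) • U))) := by
  have h0 := (bmk_ee (w - z)).1
  have h1 := (bmk_ee (w - z)).2
  rw [← neg_sub z w, bk_neg] at h0 h1
  rw [← neg_sub z w, Gl.kB2, pr1_apply, kc_bk, kc_bk, hχ]
  fin_cases p
  · simp only [Fin.zero_eta, h0, Matrix.cons_val_zero]
    funext i
    simp
    ring
  · simp only [Fin.mk_one, h1, Matrix.cons_val_one]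
    funext i
    simp
    ring

section tr

variable [IsManifold 𝓘(ℂ, C2) ω X] {a b : Fin A.N}

/-- the direction of the derivative in `y` -/
def q3 (A : FinAt X) (a b : Fin A.N) (j : Fin 2) (p : C2 × C2) : C2 :=
  fderiv ℂ (A.tau a b) p.2 (ee j)

/-- the direction of the derivative in `x` -/
def q4 (A : FinAt X) (a b : Fin A.N) (j : Fin 2) (p : C2 × C2) : C2 :=
  fderiv ℂ (A.tau a b) p.1 (ee j)

theorem Bf_apply (q : C2 × C2 → C2) (z w : C2) (x : Fin r → ℂ) :
    Bf B a b q (z, w) x = ((TT B a b).jac w * bmk (A.tau a b w - A.tau a b z) (q (z, w))) •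
      (B.E b a (A.tau a b z) *ᵥ (B.E a b w *ᵥ x)) := rfl

theorem Ba_apply (v z w : C2) (x : Fin r → ℂ) : Ba r v (z, w) x = bmk (w - z) v • x := rfl

theorem trK_kB1 {z : C2} (hχ : G.χ b (A.tau a b z) = 1) (w : C2) (U : Fin 2 → Fin r → ℂ) :
    trK B.sb1 B.sb0 a b (G.kB1 b) z w U = ((etf G a b (z, w) : ℝ) : ℂ) • ((cst : ℂ) •
      (Bf B a b (q3 A a b 0) (z, w) (U 1) - Bf B a b (q3 A a b 1) (z, w) (U 0))) := by
  by_cases hw : w ∈ A.ov a b
  · rw [trK_of_mem _ _ _ _ hw]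
    have he : etf G a b (z, w) = G.η (A.tau a b z - A.tau a b w) := if_pos hw
    rw [he, smul_apply, ContinuousLinearMap.comp_apply, ContinuousLinearMap.comp_apply,
      kB1_apply G hχ, Bf_apply, Bf_apply, TT_jac B hw,
      bmk_lin _ (q3 A a b 0 (z, w)), bmk_lin _ (q3 A a b 1 (z, w))]
    simp only [q3, fderiv_tau hw]
    set s := A.tau a b w - A.tau a b z
    set n := ((‖(A.J a b w).det‖ ^ 2 : ℝ) : ℂ) with hn
    have c00 := norm_det_mul_Cm hw 0 0
    have c01 := norm_det_mul_Cm hw 0 1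
    have c10 := norm_det_mul_Cm hw 1 0
    have c11 := norm_det_mul_Cm hw 1 1
    rw [← hn, Matrix.adjugate_fin_two] at c00 c01 c10 c11
    simp only [Matrix.of_apply, Matrix.cons_val', Matrix.cons_val_zero, Matrix.cons_val_one,
      Matrix.cons_val_fin_one, map_neg] at c00 c01 c10 c11
    change n • (B.E b a (A.tau a b z) *ᵥ _) = _
    change n • (B.E b a (A.tau a b z) *ᵥ ((G.η (A.tau a b z - A.tau a b w) : ℂ) • ((cst : ℂ) •
      (bmk s (ee 0) • (∑ j, Bun.Cm A a b w j 1 • B.E a b w *ᵥ U j) -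
       bmk s (ee 1) • (∑ j, Bun.Cm A a b w j 0 • B.E a b w *ᵥ U j))))) = _
    simp only [Matrix.mulVec_smul, Matrix.mulVec_sub, Matrix.mulVec_add, Fin.sum_univ_two]
    generalize B.E b a (A.tau a b z) *ᵥ (B.E a b w *ᵥ U 0) = x0
    generalize B.E b a (A.tau a b z) *ᵥ (B.E a b w *ᵥ U 1) = x1
    funext i
    simp only [Pi.smul_apply, Pi.sub_apply, Pi.add_apply, smul_eq_mul]
    linear_combination (G.η (A.tau a b z - A.tau a b w) : ℂ) * cst *
      (bmk s (ee 0) * x0 i * c01 + bmk s (ee 0) * x1 i * c11 - bmk s (ee 1) * x0 i * c00 -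
        bmk s (ee 1) * x1 i * c10)
  · rw [trK_of_notMem _ _ _ _ hw]
    have he : etf G a b (z, w) = 0 := if_neg hw
    rw [he, Complex.ofReal_zero, zero_smul]
    rfl

theorem trK_kB2 {z : C2} (hz : z ∈ A.ov a b) (hχ : G.χ b (A.tau a b z) = 1) (w : C2)
    (U : Fin r → ℂ) (p : Fin 2) :
    trK B.sb2 B.sb1 a b (G.kB2 b) z w U p = -(((etf G a b (z, w) : ℝ) : ℂ) • ((cst : ℂ) •
      (Bf B a b (q4 A a b p) (z, w) U))) := by
  by_cases hw : w ∈ A.ov a b
  · rw [trK_of_mem _ _ _ _ hw]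
    have he : etf G a b (z, w) = G.η (A.tau a b z - A.tau a b w) := if_pos hw
    rw [he, smul_apply, ContinuousLinearMap.comp_apply, ContinuousLinearMap.comp_apply,
      Bf_apply, TT_jac B hw, bmk_lin _ (q4 A a b p (z, w))]
    simp only [q4, fderiv_tau hz]
    set s := A.tau a b w - A.tau a b z with hs
    set n := ((‖(A.J a b w).det‖ ^ 2 : ℝ) : ℂ) with hn
    have c := norm_det_mul_det_Cm (A := A) hw
    rw [← hn] at c
    have hC : ∀ j, Bun.Cm A b a (A.tau a b z) j p = conj (A.J a b z j p) := by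
      intro j
      simp only [Bun.Cm, Matrix.map_apply, FinAt.tau_tau hz]
    change n • (∑ j, Bun.Cm A b a (A.tau a b z) j p • (B.E b a (A.tau a b z) *ᵥ
      (G.kB2 b (A.tau a b z) (A.tau a b w) ((Bun.Cm A a b w).det • (B.E a b w *ᵥ U)) j))) = _
    simp only [kB2_apply G hχ, hC, Fin.sum_univ_two, Matrix.mulVec_neg, Matrix.mulVec_smul, ← hs]
    generalize B.E b a (A.tau a b z) *ᵥ (B.E a b w *ᵥ U) = x0
    funext i
    simp only [Pi.smul_apply, Pi.neg_apply, Pi.add_apply, smul_eq_mul]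
    linear_combination (-(G.η (A.tau a b z - A.tau a b w) : ℂ) * cst * x0 i *
      (conj (A.J a b z 0 p) * bmk s (ee 0) + conj (A.J a b z 1 p) * bmk s (ee 1))) * c
  · rw [trK_of_notMem _ _ _ _ hw]
    have he : etf G a b (z, w) = 0 := if_neg hw
    rw [he, Complex.ofReal_zero, zero_smul, neg_zero]
    rfl

end tr

end Vale.Agent.P267.H462
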