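import Vale.Agent.P267.H462.Ext
import Vale.Agent.P267.H462.Alg

/-!
# P267 / H462: multiplication by `ρ_a` and `∂̄ρ_a ∧` on the forms with values in a holomorphic
bundle; the complex with partition of unity `puc B`
-/

set_option linter.unusedSectionVars false

open scoped Manifold ContDiff ComplexConjugate Matrix
open MeasureTheory Set Filter Topology

noncomputable section

namespace Vale.Agent.P267.H462

open Vale.Agent.P267.FL Vale.Agent.P267.RR

variable {X : Type*} [TopologicalSpace X] [ChartedSpace C2 X] {A : FinAt X}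

open Classical in
/-- the partition function `rho a` in the chart `b` -/
def rc (A : FinAt X) (a b : Fin A.N) (z : C2) : ℂ :=
  if z ∈ A.O b then (A.rho a ((A.e b).symm z) : ℂ) else 0

open Classical in
/-- the components of `∂̄ rho a` in the chart `b` -/
def dr (A : FinAt X) (a b : Fin A.N) (z : C2) (i : Fin 2) : ℂ :=
  if z ∈ A.O b then dzb i (rc A a b) z else 0

theorem rc_of_mem {a b : Fin A.N} {z : C2} (hz : z ∈ A.O b) :
    rc A a b z = (A.rho a ((A.e b).symm z) : ℂ) := if_pos hz

theorem rc_off {a b : Fin A.N} {z : C2} (hz : z ∉ A.O b) : rc A a b z = 0 := if_neg hz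

theorem dr_of_mem {a b : Fin A.N} {z : C2} (hz : z ∈ A.O b) (i : Fin 2) :
    dr A a b z i = dzb i (rc A a b) z := if_pos hz

theorem dr_off {a b : Fin A.N} {z : C2} (hz : z ∉ A.O b) (i : Fin 2) : dr A a b z i = 0 :=
  if_neg hz

theorem rc_smooth (a b : Fin A.N) : ContDiffOn ℝ ∞ (rc A a b) (A.O b) := by
  have h := (A.rho_smooth a (A.e b) (A.he b)).mono (s := (A.e b).target) (t := A.O b)
    fun z hz => hz.1
  refine h.congr fun z hz => ?_
  rw [rc_of_mem hz]
  simp [loc0]

theorem rc_diff {a b : Fin A.N} {z : C2} (hz : z ∈ A.O b) : DifferentiableAt ℝ (rc A a b) z :=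
  ((rc_smooth a b).contDiffAt ((A.isOpen_O b).mem_nhds hz)).differentiableAt (by simp)

theorem dr_smooth (a b : Fin A.N) (i : Fin 2) : ContDiffOn ℝ ∞ (fun z => dr A a b z i) (A.O b) :=
  (contDiffOn_dzb (A.isOpen_O b) (rc_smooth a b) (by exact_mod_cast le_rfl) i).congr
    fun _ hz => dr_of_mem hz i

theorem rc_tau {a b c : Fin A.N} {z : C2} (hz : z ∈ A.ov b c) :
    rc A a c (A.tau b c z) = rc A a b z := by
  rw [rc_of_mem (FinAt.tau_mem_O hz), rc_of_mem hz.1, FinAt.symm_tau hz]

/-- `rho a` vanishes outside its support -/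
theorem rc_zero {a b : Fin A.N} {z : C2} (hz : z ∈ A.O b)
    (h : (A.e b).symm z ∉ tsupport (A.rho a)) : rc A a b z = 0 := by
  rw [rc_of_mem hz, image_eq_zero_of_notMem_tsupport h, Complex.ofReal_zero]

theorem rc_eventually_zero {a b : Fin A.N} {z : C2} (hz : z ∈ A.O b)
    (h : (A.e b).symm z ∉ tsupport (A.rho a)) : rc A a b =ᶠ[𝓝 z] fun _ => 0 := by
  have h2 : ContinuousAt (A.e b).symm z :=
    (continuousOn_symm b).continuousAt ((A.isOpen_O b).mem_nhds hz)
  filter_upwards [h2.preimage_mem_nhds ((isClosed_tsupport (A.rho a)).isOpen_compl.mem_nhds h),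
    (A.isOpen_O b).mem_nhds hz] with w hw hwO
  exact rc_zero hwO hw

theorem dr_zero {a b : Fin A.N} {z : C2} (hz : z ∈ A.O b)
    (h : (A.e b).symm z ∉ tsupport (A.rho a)) (i : Fin 2) : dr A a b z i = 0 := by
  rw [dr_of_mem hz, dzb_congr (rc_eventually_zero hz h), dzb_const]

theorem rc_sum {b : Fin A.N} {z : C2} (hz : z ∈ A.O b) : ∑ a, rc A a b z = 1 := by
  simp_rw [rc_of_mem hz]
  rw [← Complex.ofReal_sum, A.rho_sum, Complex.ofReal_one]

theorem dr_sum {b : Fin A.N} {z : C2} (hz : z ∈ A.O b) (i : Fin 2) : ∑ a, dr A a b z i = 0 := by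
  simp_rw [dr_of_mem hz]
  rw [← dzb_sum (f := fun a => rc A a b) Finset.univ fun a _ => rc_diff hz]
  have h : (fun y => ∑ a, rc A a b y) =ᶠ[𝓝 z] fun _ => 1 := by
    filter_upwards [(A.isOpen_O b).mem_nhds hz] with y hy using rc_sum hy
  rw [dzb_congr h, dzb_const]

section hol

variable [IsManifold 𝓘(ℂ, C2) ω X]

theorem dr_tau {a b c : Fin A.N} {z : C2} (hz : z ∈ A.ov b c) (j : Fin 2) :
    ∑ p, conj (A.J b c z p j) * dr A a c (A.tau b c z) p = dr A a b z j := by
  have h1 : (fun y => rc A a c (A.tau b c y)) =ᶠ[𝓝 z] rc A a b := by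
    filter_upwards [(A.isOpen_ov b c).mem_nhds hz] with y hy using rc_tau hy
  have h2 := dzb_congr h1 j
  rw [dzb_comp (rc_diff (FinAt.tau_mem_O hz)) (FinAt.tau_analyticAt hz).differentiableAt] at h2
  rw [dr_of_mem hz.1, ← h2]
  refine Finset.sum_congr rfl fun p _ => ?_
  rw [FinAt.J_apply hz, dr_of_mem (FinAt.tau_mem_O hz), smul_eq_mul]

end hol

variable {V : Type} [NormedAddCommGroup V] [NormedSpace ℂ V]

/-- multiplication by `rho a` -/
def mrho (S : SB A V) (a : Fin A.N) : BM S S where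
  φ b z := rc A a b z • ContinuousLinearMap.id ℂ V
  smooth b := (rc_smooth a b).smul contDiffOn_const
  off b z hz := by rw [rc_off hz, zero_smul]
  compat b c z hz v := by
    simp only [smul_apply, ContinuousLinearMap.id_apply, map_smul]
    rw [rc_tau hz]

@[simp] theorem mrho_φ (S : SB A V) (a b : Fin A.N) (z : C2) (v : V) :
    (mrho S a).φ b z v = rc A a b z • v := rfl

section hol

variable [IsManifold 𝓘(ℂ, C2) ω X] {r : ℕ} (B : Bun A r)

/-- the linear map `v ↦ (c_i v)_i` -/
def pr1 {r : ℕ} : (Fin 2 → ℂ) →L[ℂ] ((Fin r → ℂ) →L[ℂ] (Fin 2 → Fin r → ℂ)) :=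
  LinearMap.toContinuousLinearMap
    { toFun := fun c => LinearMap.toContinuousLinearMap
        { toFun := fun v i => c i • v
          map_add' := fun v w => by funext i; simp [smul_add]
          map_smul' := fun t v => by funext i; simp [smul_comm t] }
      map_add' := fun c d => by
        ext v i j
        simp [add_mul]
      map_smul' := fun t c => by
        ext v i j
        simp [mul_assoc] }

@[simp] theorem pr1_apply {r : ℕ} (c : Fin 2 → ℂ) (v : Fin r → ℂ) (i : Fin 2) :
    pr1 c v i = c i • v := rfl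

/-- the linear map `u ↦ c_0 u_1 - c_1 u_0` -/
def pr2 {r : ℕ} : (Fin 2 → ℂ) →L[ℂ] ((Fin 2 → Fin r → ℂ) →L[ℂ] (Fin r → ℂ)) :=
  LinearMap.toContinuousLinearMap
    { toFun := fun c => LinearMap.toContinuousLinearMap
        { toFun := fun u => c 0 • u 1 - c 1 • u 0
          map_add' := fun v w => by
            simp only [Pi.add_apply, smul_add]
            abel
          map_smul' := fun t v => by
            simp only [Pi.smul_apply, RingHom.id_apply, smul_sub, smul_comm t] }
      map_add' := fun c d => by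
        ext v j
        simp [add_mul]
        ring
      map_smul' := fun t c => by
        ext v j
        simp [mul_assoc, mul_sub] }

@[simp] theorem pr2_apply {r : ℕ} (c : Fin 2 → ℂ) (u : Fin 2 → Fin r → ℂ) :
    pr2 c u = c 0 • u 1 - c 1 • u 0 := rfl

/-- `∂̄ rho_a ∧` in degree `0` -/
def wr0 (a : Fin A.N) : BM B.sb0 B.sb1 where
  φ b z := pr1 (dr A a b z)
  smooth b := (pr1.contDiff.restrict_scalars ℝ).comp_contDiffOn
    (contDiffOn_pi.2 fun i => dr_smooth a b i)
  off b z hz := by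
    have : dr A a b z = 0 := by funext i; exact dr_off hz i
    rw [this, map_zero]
  compat b c z hz v := by
    refine (Bun.compat1_iff hz _ _ _).2 fun j => ?_
    simp only [pr1_apply, smul_smul, ← Finset.sum_smul]
    rw [dr_tau hz j, Matrix.mulVec_smul]
    rfl

/-- `∂̄ rho_a ∧` in degree `1` -/
def wr1 (a : Fin A.N) : BM B.sb1 B.sb2 where
  φ b z := pr2 (dr A a b z)
  smooth b := (pr2.contDiff.restrict_scalars ℝ).comp_contDiffOn
    (contDiffOn_pi.2 fun i => dr_smooth a b i)
  off b z hz := by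
    have : dr A a b z = 0 := by funext i; exact dr_off hz i
    rw [this, map_zero]
  compat b c z hz v := by
    refine (Bun.compat2_iff hz _ _ _).2 ?_
    have h0 := dr_tau (a := a) hz 0
    have h1 := dr_tau (a := a) hz 1
    have g := (Bun.compat1_iff hz (B.E b c z) v (B.sb1.T b c z v)).1 rfl
    have g0 := g 0
    have g1 := g 1
    simp only [Fin.sum_univ_two] at h0 h1 g0 g1
    simp only [pr2_apply]
    rw [Matrix.mulVec_sub, Matrix.mulVec_smul, Matrix.mulVec_smul, ← g0, ← g1, ← h0, ← h1,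
      Matrix.det_fin_two]
    simp only [map_sub, map_mul]
    module

@[simp] theorem wr0_φ (a b : Fin A.N) (z : C2) (v : Fin r → ℂ) (i : Fin 2) :
    (wr0 B a).φ b z v i = dr A a b z i • v := rfl

@[simp] theorem wr1_φ (a b : Fin A.N) (z : C2) (u : Fin 2 → Fin r → ℂ) :
    (wr1 B a).φ b z u = dr A a b z 0 • u 1 - dr A a b z 1 • u 0 := rfl

theorem sec0_diff (s : B.sb0.Sec) {b : Fin A.N} {z : C2} (hz : z ∈ A.O b) :
    DifferentiableAt ℝ (s.1 b) z := (Bun.Sec_contDiffAt s.2 hz).differentiableAt (by simp)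

theorem sec1_diff (u : B.sb1.Sec) {b : Fin A.N} {z : C2} (hz : z ∈ A.O b) (p : Fin 2) :
    DifferentiableAt ℝ (fun y => u.1 b y p) z :=
  differentiableAt_pi.1 ((Bun.Sec_contDiffAt u.2 hz).differentiableAt (by simp)) p

theorem d0_apply (s : B.sb0.Sec) {b : Fin A.N} {z : C2} (hz : z ∈ A.O b) (i : Fin 2) :
    (B.d0 s).1 b z i = dzb i (s.1 b) z := by
  change Bun.d0f s.1 b z i = _
  simp [Bun.d0f, hz]

theorem d1_apply (u : B.sb1.Sec) {b : Fin A.N} {z : C2} (hz : z ∈ A.O b) :
    (B.d1 u).1 b z = dzb 0 (fun y => u.1 b y 1) z - dzb 1 (fun y => u.1 b y 0) z := by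
  change Bun.d1f u.1 b z = _
  simp [Bun.d1f, hz]

theorem d_m0 (a : Fin A.N) (s : B.sb0.Sec) :
    B.d0 ((mrho B.sb0 a).op s) = (wr0 B a).op s + (mrho B.sb1 a).op (B.d0 s) := by
  apply Subtype.ext
  funext b z
  by_cases hz : z ∈ A.O b
  · funext i
    rw [d0_apply B _ hz]
    change dzb i (fun y => rc A a b y • s.1 b y) z =
      dr A a b z i • s.1 b z + rc A a b z • (B.d0 s).1 b z i
    rw [FL.dzb_smul (rc_diff hz) (sec0_diff B s hz), d0_apply B _ hz, dr_of_mem hz]
    abel
  · rw [sec_off _ hz, sec_off _ hz]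

theorem d_m1 (a : Fin A.N) (u : B.sb1.Sec) :
    B.d1 ((mrho B.sb1 a).op u) = (wr1 B a).op u + (mrho B.sb2 a).op (B.d1 u) := by
  apply Subtype.ext
  funext b z
  by_cases hz : z ∈ A.O b
  · rw [d1_apply B _ hz]
    change dzb 0 (fun y => rc A a b y • u.1 b y 1) z - dzb 1 (fun y => rc A a b y • u.1 b y 0) z =
      (dr A a b z 0 • u.1 b z 1 - dr A a b z 1 • u.1 b z 0) + rc A a b z • (B.d1 u).1 b z
    rw [FL.dzb_smul (rc_diff hz) (sec1_diff B u hz 1),
      FL.dzb_smul (rc_diff hz) (sec1_diff B u hz 0), d1_apply B _ hz, dr_of_mem hz, dr_of_mem hz]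
    module
  · rw [sec_off _ hz, sec_off _ hz]

/-- the Dolbeault complex of `B` with the partition of unity -/
def puc : PUComplex (Fin A.N) B.sb0.Sec B.sb1.Sec B.sb2.Sec where
  d0 := B.d0
  d1 := B.d1
  m0 a := (mrho B.sb0 a).op
  m1 a := (mrho B.sb1 a).op
  m2 a := (mrho B.sb2 a).op
  w0 a := (wr0 B a).op
  w1 a := (wr1 B a).op
  dd := B.d1_d0
  sum_m0 s := by
    apply Subtype.ext
    funext b z
    rw [AddSubmonoidClass.coe_finsetSum, Finset.sum_apply, Finset.sum_apply]
    by_cases hz : z ∈ A.O b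
    · change ∑ a, rc A a b z • s.1 b z = s.1 b z
      rw [← Finset.sum_smul, rc_sum hz, one_smul]
    · rw [sec_off s hz]
      exact Finset.sum_eq_zero fun a _ => sec_off _ hz
  sum_m1 s := by
    apply Subtype.ext
    funext b z
    rw [AddSubmonoidClass.coe_finsetSum, Finset.sum_apply, Finset.sum_apply]
    by_cases hz : z ∈ A.O b
    · change ∑ a, rc A a b z • s.1 b z = s.1 b z
      rw [← Finset.sum_smul, rc_sum hz, one_smul]
    · rw [sec_off s hz]
      exact Finset.sum_eq_zero fun a _ => sec_off _ hz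
  sum_m2 s := by
    apply Subtype.ext
    funext b z
    rw [AddSubmonoidClass.coe_finsetSum, Finset.sum_apply, Finset.sum_apply]
    by_cases hz : z ∈ A.O b
    · change ∑ a, rc A a b z • s.1 b z = s.1 b z
      rw [← Finset.sum_smul, rc_sum hz, one_smul]
    · rw [sec_off s hz]
      exact Finset.sum_eq_zero fun a _ => sec_off _ hz
  sum_w0 s := by
    apply Subtype.ext
    funext b z
    rw [AddSubmonoidClass.coe_finsetSum, Finset.sum_apply, Finset.sum_apply]
    by_cases hz : z ∈ A.O b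
    · funext i
      rw [Finset.sum_apply]
      change ∑ a, dr A a b z i • s.1 b z = 0
      rw [← Finset.sum_smul, dr_sum hz, zero_smul]
    · exact Finset.sum_eq_zero fun a _ => sec_off _ hz
  sum_w1 s := by
    apply Subtype.ext
    funext b z
    rw [AddSubmonoidClass.coe_finsetSum, Finset.sum_apply, Finset.sum_apply]
    by_cases hz : z ∈ A.O b
    · change ∑ a, (dr A a b z 0 • s.1 b z 1 - dr A a b z 1 • s.1 b z 0) = 0
      rw [Finset.sum_sub_distrib, ← Finset.sum_smul, ← Finset.sum_smul, dr_sum hz, dr_sum hz,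
        zero_smul, zero_smul, sub_zero]
    · exact Finset.sum_eq_zero fun a _ => sec_off _ hz
  d_m0 := d_m0 B
  d_m1 := d_m1 B
  d_w0 a s := by
    have h1 := congrArg B.d1 (d_m0 B a s)
    rw [B.d1_d0, map_add, d_m1, B.d1_d0, map_zero, add_zero] at h1
    exact eq_neg_of_add_eq_zero_left h1.symm

end hol

end Vale.Agent.P267.H462
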