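import Vale.Agent.P267.H462.Tp

/-!
# P267 / H462: the error kernels of K3, K4: smoothness, support, diagonal
-/

set_option linter.unusedSectionVars false

open scoped Manifold ContDiff ComplexConjugate Matrix
open MeasureTheory Set Filter Topology Metric

noncomputable section

namespace Vale.Agent.P267.H462

open Vale.Agent.P267.FL Vale.Agent.P267.RR Vale.Agent.P267.H551
open Vale.Agent.P267.H667 (IsCutoff kc cst)
open Vale.Agent.P267.H433 (Tr ee dbv bmk nn)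

variable {X : Type*} [TopologicalSpace X] [ChartedSpace C2 X] {A : FinAt X}
  {V : Type} [NormedAddCommGroup V] [NormedSpace ℂ V]
  {W : Type} [NormedAddCommGroup W] [NormedSpace ℂ W]

theorem dzb_eq_dbv (j : Fin 2) (f : C2 → V) (z : C2) : dzb j f z = dbv (ee j) f z := by
  rw [dzb, dbv]
  have : Complex.I • ee j = Pi.single j Complex.I := by
    funext i
    by_cases h : i = j
    · subst h; simp [ee]
    · simp [ee, h]
  rw [this, ee]

theorem bmk_zero (v : C2) : bmk 0 v = 0 := by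
  simp [bmk]

theorem z_smul {r : ℕ} (x : EA r) : (0 : ℂ) • x = 0 := zero_smul ℂ x

variable {r : ℕ} {B : Bun A r} (G : Gl B)

open Classical in
/-- the cut-off function of the chart `b`, in the chart `a` -/
def etf (a b : Fin A.N) (p : C2 × C2) : ℝ :=
  if p.2 ∈ A.ov a b then G.η (A.tau a b p.1 - A.tau a b p.2) else 0

/-- the Bochner-Martinelli kernel of the chart `b`, in the chart `a` -/
def Bf (B : Bun A r) (a b : Fin A.N) (q : C2 × C2 → C2) (p : C2 × C2) : EA r :=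
  ((TT B a b).jac p.2 * bmk (A.tau a b p.2 - A.tau a b p.1) (q p)) •
    ((TT B a b).ei p.1 * (TT B a b).e p.2)

/-- the Bochner-Martinelli kernel of the chart `a` -/
def Ba (r : ℕ) (v : C2) (p : C2 × C2) : EA r := bmk (p.2 - p.1) v • (1 : EA r)

/-- the coefficient of `C` -/
def psi (a b : Fin A.N) (c : ℂ) (δ : C2 × C2) (p : C2 × C2) : ℂ :=
  c * dbv δ (fun p => (G.θ a b p : ℂ)) p

/-- the error kernel -/
def QQ (a b : Fin A.N) (q : C2 × C2 → C2) (v : C2) (c : ℂ) (δ p : C2 × C2) : EA r :=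
  ((etf G a b p - G.θ a b p : ℝ) : ℂ) • Bf B a b q p -
    ((G.η (p.1 - p.2) - G.θ a b p : ℝ) : ℂ) • Ba r v p + psi G a b c δ p • (TT B a b).C p

section points

variable {a b : Fin A.N} {z : C2}

theorem im_ov (hz : z ∈ im A a (sp A a ∩ sp A b)) : z ∈ A.ov a b := by
  obtain ⟨x, hx, rfl⟩ := hz
  exact FinAt.mem_ov (A.rho_supp a hx.1) (A.rho_supp b hx.2)

theorem im_ball (G : Gl B) (hz : z ∈ im A a (sp A a ∩ sp A b)) :
    closedBall z G.ε ⊆ A.ov a b := by
  have h := G.ball a a b z (by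
    obtain ⟨x, hx, rfl⟩ := hz
    exact ⟨x, ⟨⟨hx.1, hx.1⟩, hx.2⟩, rfl⟩)
  exact h.trans inter_subset_right

theorem im_tau (hz : z ∈ im A a (sp A a ∩ sp A b)) :
    A.tau a b z ∈ im A b (sp A b ∩ sp A a) := by
  obtain ⟨x, hx, rfl⟩ := hz
  refine ⟨x, ⟨hx.2, hx.1⟩, ?_⟩
  have h1 : x ∈ (A.e a).source := A.U_sub a (A.rho_supp a hx.1)
  simp only [FinAt.tau, (A.e a).left_inv h1]

end points

section psi

variable {G} {a b : Fin A.N} {c : ℂ} {δ : C2 × C2}

theorem psi_smooth : ContDiff ℝ ∞ (psi G a b c δ) :=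
  contDiff_const.mul (contDiff_dbv (G.θ_smooth a b) δ)

theorem psi_zero {p : C2 × C2} (hp : p ∉ tsupport (G.θ a b)) : psi G a b c δ p = 0 := by
  rw [psi, dbv_eq_zero hp, mul_zero]

theorem psi_diag {z : C2} (hz : z ∈ im A a (sp A a ∩ sp A b)) :
    ∀ᶠ p in 𝓝 ((z, z) : C2 × C2), psi G a b c δ p = 0 ∧ G.θ a b p = 1 := by
  obtain ⟨N, hN, hN1, hN2⟩ := G.θ_one a b
  filter_upwards [hN.mem_nhds (hN1 z hz)] with p hp
  refine ⟨?_, hN2 p hp⟩
  have h : (fun p => (G.θ a b p : ℂ)) =ᶠ[𝓝 p] fun _ => 1 := by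
    filter_upwards [hN.mem_nhds hp] with q hq
    rw [hN2 q hq, Complex.ofReal_one]
  rw [psi, H433.dbv_congr h, H433.dbv_const, mul_zero]

end psi

section smooth

variable [T2Space X] [IsManifold 𝓘(ℂ, C2) ω X] {G} {a b : Fin A.N}

theorem q3_smooth (a b : Fin A.N) (j : Fin 2) :
    ContDiffOn ℝ ∞ (fun p : C2 × C2 => fderiv ℂ (A.tau a b) p.2 (ee j))
      (A.ov a b ×ˢ A.ov a b) := by
  have h1 : ContDiffOn ℂ ∞ (fun y => fderiv ℂ (A.tau a b) y (ee j)) (A.ov a b) :=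
    ((tau_contDiffOn a b (n := ∞)).fderiv_of_isOpen (A.isOpen_ov a b) (m := ∞) (by simp)).clm_apply
      contDiffOn_const
  exact ((h1.restrict_scalars ℝ).comp contDiff_snd.contDiffOn fun p hp => hp.2)

theorem q4_smooth (a b : Fin A.N) (j : Fin 2) :
    ContDiffOn ℝ ∞ (fun p : C2 × C2 => fderiv ℂ (A.tau a b) p.1 (ee j))
      (A.ov a b ×ˢ A.ov a b) := by
  have h1 : ContDiffOn ℂ ∞ (fun y => fderiv ℂ (A.tau a b) y (ee j)) (A.ov a b) :=
    ((tau_contDiffOn a b (n := ∞)).fderiv_of_isOpen (A.isOpen_ov a b) (m := ∞) (by simp)).clm_apply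
      contDiffOn_const
  exact ((h1.restrict_scalars ℝ).comp contDiff_fst.contDiffOn fun p hp => hp.1)

theorem bmk_smooth {s q : C2 × C2 → C2} {p : C2 × C2} (hs : ContDiffAt ℝ ∞ s p)
    (hq : ContDiffAt ℝ ∞ q p) (hne : s p ≠ 0) : ContDiffAt ℝ ∞ (fun p => bmk (s p) (q p)) p := by
  have h1 : ∀ k : Fin 2, ContDiffAt ℝ ∞ (fun p => bk (s p) k) p := fun k =>
    ((contDiffOn_bk k).contDiffAt (isOpen_ne.mem_nhds hne)).comp p hs
  have h2 : ∀ k : Fin 2, ContDiffAt ℝ ∞ (fun p => conj (q p k)) p := fun k =>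
    contDiff_conj.contDiffAt.comp p (contDiffAt_pi.1 hq k)
  have h3 : (fun p => bmk (s p) (q p)) = fun p =>
      bk (s p) 0 * conj (q p 1) - bk (s p) 1 * conj (q p 0) := by
    funext p
    exact bmk_eq _ _
  rw [h3]
  exact ((h1 0).mul (h2 1)).sub ((h1 1).mul (h2 0))

theorem Ba_smooth (v : C2) {p : C2 × C2} (hne : p.2 ≠ p.1) : ContDiffAt ℝ ∞ (Ba r v) p :=
  (bmk_smooth (by fun_prop) contDiffAt_const (sub_ne_zero.2 hne)).smul contDiffAt_const

theorem Bf_smooth (G : Gl B) {q : C2 × C2 → C2} (hq : ContDiffOn ℝ ∞ q (A.ov a b ×ˢ A.ov a b))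
    {p : C2 × C2} (h1 : p.1 ∈ A.ov a b) (h2 : p.2 ∈ A.ov a b) (hne : p.2 ≠ p.1) :
    ContDiffAt ℝ ∞ (Bf B a b q) p := by
  have hop : A.ov a b ×ˢ A.ov a b ∈ 𝓝 p :=
    ((A.isOpen_ov a b).prod (A.isOpen_ov a b)).mem_nhds ⟨h1, h2⟩
  have t1 : ContDiffAt ℝ ∞ (fun p : C2 × C2 => A.tau a b p.1) p :=
    (tau_contDiffAt_real h1).comp p contDiffAt_fst
  have t2 : ContDiffAt ℝ ∞ (fun p : C2 × C2 => A.tau a b p.2) p :=
    (tau_contDiffAt_real h2).comp p contDiffAt_snd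
  have t3 : ContDiffAt ℝ ∞ (fun p => bmk (A.tau a b p.2 - A.tau a b p.1) (q p)) p :=
    bmk_smooth (t2.sub t1) (hq.contDiffAt hop)
      (sub_ne_zero.2 fun h => hne (tau_injOn a b h2 h1 h))
  have hon := G.D_on a b
  have o1 := (A.isOpen_ov a b).mem_nhds h1
  have o2 := (A.isOpen_ov a b).mem_nhds h2
  have t4 : ContDiffAt ℝ ∞ (fun p : C2 × C2 => (TT B a b).jac p.2) p :=
    ((hon.cjac.restrict_scalars ℝ).contDiffAt o2).comp p contDiffAt_snd
  have t5 : ContDiffAt ℝ ∞ (fun p : C2 × C2 => (TT B a b).ei p.1) p :=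
    ((hon.hei.restrict_scalars ℝ).contDiffAt o1).comp p contDiffAt_fst
  have t6 : ContDiffAt ℝ ∞ (fun p : C2 × C2 => (TT B a b).e p.2) p :=
    ((hon.he.restrict_scalars ℝ).contDiffAt o2).comp p contDiffAt_snd
  exact (t4.mul t3).smul (t5.mul t6)

theorem etf_smooth (hη : ContDiff ℝ ∞ G.η) {p : C2 × C2} (h1 : p.1 ∈ A.ov a b)
    (h2 : p.2 ∈ A.ov a b) : ContDiffAt ℝ ∞ (etf G a b) p := by
  have t1 : ContDiffAt ℝ ∞ (fun p : C2 × C2 => A.tau a b p.1) p :=
    (tau_contDiffAt_real h1).comp p contDiffAt_fst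
  have t2 : ContDiffAt ℝ ∞ (fun p : C2 × C2 => A.tau a b p.2) p :=
    (tau_contDiffAt_real h2).comp p contDiffAt_snd
  have t3 : ContDiffAt ℝ ∞ (fun p : C2 × C2 => G.η (A.tau a b p.1 - A.tau a b p.2)) p :=
    hη.contDiffAt.comp p (t1.sub t2)
  refine t3.congr_of_eventuallyEq ?_
  filter_upwards [continuous_snd.continuousAt.preimage_mem_nhds
    ((A.isOpen_ov a b).mem_nhds h2)] with q hq
  exact if_pos hq

theorem C_smooth {p : C2 × C2} (hp : p ∈ G.D a b) (hne : p.2 ≠ p.1) :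
    ContDiffAt ℝ ∞ (TT B a b).C p := by
  have h1 := (kerOn_C (G.D_on a b)).contDiffOn
  have hop : IsOpen {p : C2 × C2 | p ∈ G.D a b ∧ p.1 ≠ p.2} :=
    (G.D_on a b).oD.inter (isOpen_ne_fun continuous_fst continuous_snd)
  exact h1.contDiffAt (hop.mem_nhds ⟨hp, Ne.symm hne⟩)

theorem etf_ne {p : C2 × C2} (h : etf G a b p ≠ 0) : p.2 ∈ A.ov a b ∧
    A.tau a b p.2 ∈ closedBall (A.tau a b p.1) G.ε := by
  unfold etf at h
  split_ifs at h with h1
  · refine ⟨h1, ?_⟩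
    have h2 := G.η_supp (subset_tsupport _ h)
    rw [mem_closedBall_zero_iff, norm_sub_rev] at h2
    rwa [mem_closedBall, dist_eq_norm]
  · exact absurd rfl h

theorem etf_off {z w : C2} (hz : z ∈ im A a (sp A a ∩ sp A b)) (hw : w ∉ A.ov a b) :
    ∀ᶠ p in 𝓝 ((z, w) : C2 × C2), etf G a b p = 0 := by
  have h1 : closedBall (A.tau a b z) G.ε ⊆ A.ov b a := im_ball G (im_tau hz)
  obtain ⟨δ, hδ, h2⟩ := exists_eps (isCompact_closedBall (A.tau a b z) G.ε)
    (A.isOpen_ov b a) h1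
  have h3 : closedBall (A.tau a b z) (G.ε + δ) ⊆ A.ov b a := by
    intro y hy
    rw [mem_closedBall, dist_eq_norm] at hy
    by_cases hy1 : ‖y - A.tau a b z‖ ≤ G.ε
    · exact h1 (by rwa [mem_closedBall, dist_eq_norm])
    · push Not at hy1
      have hpos : 0 < ‖y - A.tau a b z‖ := G.ε_pos.trans hy1
      set t : ℝ := G.ε / ‖y - A.tau a b z‖ with ht
      have ht0 : 0 < t := div_pos G.ε_pos hpos
      have ht1 : t < 1 := (div_lt_one hpos).2 hy1
      have htm : t * ‖y - A.tau a b z‖ = G.ε := div_mul_cancel₀ _ hpos.ne'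
      have h4 : A.tau a b z + t • (y - A.tau a b z) ∈ closedBall (A.tau a b z) G.ε := by
        rw [mem_closedBall, dist_eq_norm, add_sub_cancel_left, norm_smul, Real.norm_of_nonneg
          ht0.le, htm]
      refine h2 _ h4 ?_
      rw [mem_closedBall, dist_eq_norm]
      have h5 : y - (A.tau a b z + t • (y - A.tau a b z)) = (1 - t) • (y - A.tau a b z) := by
        module
      rw [h5, norm_smul, Real.norm_of_nonneg (by linarith)]
      nlinarith
  have hM : IsCompact (A.tau b a '' closedBall (A.tau a b z) (G.ε + δ)) :=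
    (isCompact_closedBall _ _).image_of_continuousOn ((tau_continuousOn b a).mono h3)
  have hwM : w ∉ A.tau b a '' closedBall (A.tau a b z) (G.ε + δ) := by
    rintro ⟨y, hy, rfl⟩
    exact hw (FinAt.tau_mem (h3 hy))
  have hz0 : ContinuousAt (A.tau a b) z :=
    (tau_continuousOn a b).continuousAt ((A.isOpen_ov a b).mem_nhds (im_ov hz))
  have e1 : ∀ᶠ p in 𝓝 ((z, w) : C2 × C2), A.tau a b p.1 ∈ ball (A.tau a b z) δ :=
    (hz0.comp (x := ((z, w) : C2 × C2)) (f := Prod.fst) continuousAt_fst).preimage_mem_nhds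
      (ball_mem_nhds _ hδ)
  have e2 : ∀ᶠ p in 𝓝 ((z, w) : C2 × C2),
      p.2 ∈ (A.tau b a '' closedBall (A.tau a b z) (G.ε + δ))ᶜ :=
    continuousAt_snd.eventually (hM.isClosed.isOpen_compl.mem_nhds hwM)
  filter_upwards [e1, e2] with p hp1 hp2
  by_contra hne
  obtain ⟨h6, h7⟩ := etf_ne hne
  refine hp2 ⟨A.tau a b p.2, ?_, FinAt.tau_tau h6⟩
  rw [mem_closedBall] at h7 ⊢
  rw [mem_ball] at hp1
  linarith [dist_triangle (A.tau a b p.2) (A.tau a b p.1) (A.tau a b z)]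

theorem etf_diag {z : C2} (hz : z ∈ im A a (sp A a ∩ sp A b)) :
    ∀ᶠ p in 𝓝 ((z, z) : C2 × C2), etf G a b p = 1 := by
  have hz1 : z ∈ A.ov a b := im_ov hz
  have hz0 : ContinuousAt (A.tau a b) z :=
    (tau_continuousOn a b).continuousAt ((A.isOpen_ov a b).mem_nhds hz1)
  have h1 : ContinuousAt (fun p : C2 × C2 => A.tau a b p.1 - A.tau a b p.2) (z, z) :=
    (hz0.comp (x := ((z, z) : C2 × C2)) (f := Prod.fst) continuousAt_fst).sub
      (hz0.comp (x := ((z, z) : C2 × C2)) (f := Prod.snd) continuousAt_snd)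
  have h2 : Tendsto (fun p : C2 × C2 => A.tau a b p.1 - A.tau a b p.2) (𝓝 (z, z)) (𝓝 0) := by
    have := h1.tendsto
    simpa using this
  have h3 : ∀ᶠ p in 𝓝 ((z, z) : C2 × C2), p.2 ∈ A.ov a b :=
    continuousAt_snd.eventually ((A.isOpen_ov a b).mem_nhds hz1)
  filter_upwards [h2.eventually G.η_cut.one, h3] with p hp hp2
  rw [etf, if_pos hp2, hp]

theorem eta_diag {z : C2} : ∀ᶠ p in 𝓝 ((z, z) : C2 × C2), G.η (p.1 - p.2) = 1 := by
  have h2 : Tendsto (fun p : C2 × C2 => p.1 - p.2) (𝓝 (z, z)) (𝓝 0) := by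
    have : ContinuousAt (fun p : C2 × C2 => p.1 - p.2) (z, z) := by fun_prop
    simpa using this.tendsto
  exact h2.eventually G.η_cut.one

variable {q : C2 × C2 → C2} {v : C2} {c : ℂ} {δ : C2 × C2}

theorem QQ_diag {z : C2} (hz : z ∈ im A a (sp A a ∩ sp A b)) :
    ∀ᶠ p in 𝓝 ((z, z) : C2 × C2), QQ G a b q v c δ p = 0 := by
  filter_upwards [etf_diag (G := G) hz, eta_diag (G := G), psi_diag (G := G) hz] with p h1 h2 h3
  rw [QQ, h1, h2, h3.1, h3.2, sub_self, Complex.ofReal_zero, z_smul, z_smul, z_smul, sub_zero,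
    add_zero]

/-- **the error kernel is smooth** -/
theorem QQ_smooth (hq : ContDiffOn ℝ ∞ q (A.ov a b ×ˢ A.ov a b)) {z : C2}
    (hz : z ∈ im A a (sp A a ∩ sp A b)) (w : C2) :
    ContDiffAt ℝ ∞ (QQ G a b q v c δ) (z, w) := by
  have hz1 : z ∈ A.ov a b := im_ov hz
  by_cases hzw : w = z
  · subst hzw
    exact (contDiffAt_const (c := (0 : EA r))).congr_of_eventuallyEq (QQ_diag hz)
  have hηs : ContDiffAt ℝ ∞ (fun p : C2 × C2 => G.η (p.1 - p.2)) (z, w) :=
    (G.η_cut.smooth.comp (contDiff_fst.sub contDiff_snd)).contDiffAt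
  have hB := Ba_smooth (r := r) v (p := (z, w)) hzw
  by_cases hw : w ∈ A.ov a b
  · have hθ : ContDiffAt ℝ ∞ (G.θ a b) (z, w) := (G.θ_smooth a b).contDiffAt
    have h1 : ContDiffAt ℝ ∞ (fun p => ((etf G a b p - G.θ a b p : ℝ) : ℂ)) (z, w) :=
      Complex.ofRealCLM.contDiff.contDiffAt.comp (z, w)
        ((etf_smooth G.η_cut.smooth (p := (z, w)) hz1 hw).sub hθ)
    have h2 : ContDiffAt ℝ ∞ (fun p => ((G.η (p.1 - p.2) - G.θ a b p : ℝ) : ℂ)) (z, w) :=
      Complex.ofRealCLM.contDiff.contDiffAt.comp (z, w) (hηs.sub hθ)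
    have h3 : ContDiffAt ℝ ∞ (fun p => psi G a b c δ p • (TT B a b).C p) (z, w) := by
      by_cases hD : (z, w) ∈ G.D a b
      · exact psi_smooth.contDiffAt.smul (C_smooth hD hzw)
      · have h4 : (fun p => psi G a b c δ p • (TT B a b).C p) =ᶠ[𝓝 (z, w)] fun _ => 0 := by
          filter_upwards [(isClosed_tsupport (G.θ a b)).isOpen_compl.mem_nhds fun h =>
            hD (G.θ_supp a b h)] with p hp
          rw [psi_zero hp, z_smul]
        exact (contDiffAt_const (c := (0 : EA r))).congr_of_eventuallyEq h4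
    exact ((h1.smul (Bf_smooth G hq (p := (z, w)) hz1 hw hzw)).sub (h2.smul hB)).add h3
  · have h1 : ∀ᶠ p in 𝓝 ((z, w) : C2 × C2), p ∉ tsupport (G.θ a b) :=
      (isClosed_tsupport (G.θ a b)).isOpen_compl.mem_nhds fun h =>
        hw (G.D_sub a b (G.θ_supp a b h)).2
    have h2 : QQ G a b q v c δ =ᶠ[𝓝 (z, w)] fun p =>
        -(((G.η (p.1 - p.2) : ℝ) : ℂ) • Ba r v p) := by
      filter_upwards [etf_off (G := G) hz hw, h1] with p hp1 hp2
      rw [QQ, hp1, psi_zero hp2, image_eq_zero_of_notMem_tsupport hp2, sub_zero, sub_zero,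
        Complex.ofReal_zero, z_smul, z_smul, zero_sub, add_zero]
    refine ContDiffAt.congr_of_eventuallyEq ?_ h2
    exact ((Complex.ofRealCLM.contDiff.contDiffAt.comp (z, w) hηs).smul hB).neg

/-- the set of the points `w` -/
def LQ (G : Gl B) (a b : Fin A.N) : Set C2 :=
  im A a (sp A a ∩ sp A b) ∪ Prod.snd '' tsupport (G.θ a b) ∪
  (fun p : C2 × C2 => p.1 + p.2) '' (im A a (sp A a ∩ sp A b) ×ˢ closedBall (0 : C2) G.ε) ∪
  A.tau b a '' ((fun p : C2 × C2 => p.1 + p.2) ''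
    (im A b (sp A b ∩ sp A a) ×ˢ closedBall (0 : C2) G.ε))

theorem isCompact_sp [CompactSpace X] (a b : Fin A.N) : IsCompact (im A a (sp A a ∩ sp A b)) :=
  isCompact_im ((isClosed_tsupport _).inter (isClosed_tsupport _)).isCompact
    (inter_subset_left.trans (A.rho_supp a))

theorem sum_sub (G : Gl B) (a b : Fin A.N) :
    (fun p : C2 × C2 => p.1 + p.2) '' (im A a (sp A a ∩ sp A b) ×ˢ closedBall (0 : C2) G.ε) ⊆
      A.ov a b := by
  rintro _ ⟨⟨x, v⟩, ⟨hx, hv⟩, rfl⟩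
  refine im_ball G hx ?_
  simpa [mem_closedBall, dist_eq_norm] using hv

theorem LQ_compact [CompactSpace X] (G : Gl B) (a b : Fin A.N) : IsCompact (LQ G a b) := by
  refine (((isCompact_sp a b).union ((G.θ_comp a b).isCompact.image continuous_snd)).union
    (((isCompact_sp a b).prod (isCompact_closedBall 0 G.ε)).image (by fun_prop))).union ?_
  refine (((isCompact_sp b a).prod (isCompact_closedBall 0 G.ε)).image
    (by fun_prop)).image_of_continuousOn ((tau_continuousOn b a).mono (sum_sub G b a))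

theorem LQ_sub (G : Gl B) (a b : Fin A.N) : LQ G a b ⊆ A.O a := by
  refine union_subset (union_subset (union_subset ?_ ?_) ?_) ?_
  · exact im_sub (inter_subset_left.trans (A.rho_supp a))
  · rintro _ ⟨p, hp, rfl⟩
    exact (G.D_sub a b (G.θ_supp a b hp)).2.1
  · exact (sum_sub G a b).trans fun z hz => hz.1
  · rintro _ ⟨y, hy, rfl⟩
    exact (FinAt.tau_mem (sum_sub G b a hy)).1

theorem QQ_supp {z w : C2} (hz : z ∈ im A a (sp A a ∩ sp A b))
    (h : QQ G a b q v c δ (z, w) ≠ 0) : w ∈ LQ G a b := by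
  by_contra hw
  apply h
  have h1 : (z, w) ∉ tsupport (G.θ a b) := fun h1 =>
    hw (Or.inl (Or.inl (Or.inr ⟨_, h1, rfl⟩)))
  have h2 : etf G a b (z, w) = 0 := by
    by_contra hne
    obtain ⟨h3, h4⟩ := etf_ne hne
    refine hw (Or.inr ⟨A.tau a b w, ⟨(A.tau a b z, A.tau a b w - A.tau a b z),
      ⟨im_tau hz, ?_⟩, by simp⟩, FinAt.tau_tau h3⟩)
    rw [mem_closedBall, dist_eq_norm] at h4
    simpa using h4
  have h3 : G.η (z - w) = 0 := by
    by_contra hne
    have h4 := G.η_supp (subset_tsupport _ hne)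
    refine hw (Or.inl (Or.inr ⟨(z, w - z), ⟨hz, ?_⟩, by simp⟩))
    rw [mem_closedBall_zero_iff] at h4 ⊢
    rwa [norm_sub_rev]
  change ((etf G a b (z, w) - G.θ a b (z, w) : ℝ) : ℂ) • Bf B a b q (z, w) -
    ((G.η (z - w) - G.θ a b (z, w) : ℝ) : ℂ) • Ba r v (z, w) +
    psi G a b c δ (z, w) • (TT B a b).C (z, w) = 0
  rw [h2, h3, psi_zero h1, image_eq_zero_of_notMem_tsupport h1, sub_zero, Complex.ofReal_zero,
    z_smul, z_smul, z_smul, sub_zero, add_zero]

end smooth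

end Vale.Agent.P267.H462
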