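import Vale.Agent.P267.H221.Sys
import Vale.Agent.P267.H462.CoV
import Vale.Agent.P267.H462.Cut

/-!
# P267 / H462: complements to `H221/Sys.lean`
-/

set_option linter.unusedSectionVars false

open scoped Manifold ContDiff ComplexConjugate Matrix
open MeasureTheory Set Filter Topology

noncomputable section

namespace Vale.Agent.P267.H462

open Vale.Agent.P267.FL Vale.Agent.P267.RR

section clm

variable {E : Type*} [NormedAddCommGroup E] [NormedSpace ℝ E]
  {V : Type*} [NormedAddCommGroup V] [NormedSpace ℂ V] [FiniteDimensional ℂ V]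
  {W : Type*} [NormedAddCommGroup W] [NormedSpace ℂ W]
  {Z : Type*} [NormedAddCommGroup Z] [NormedSpace ℂ Z]

/-- decomposition of a linear map along a basis -/
theorem clm_eq_sum (f : V →L[ℂ] W) : f = ∑ i, (LinearMap.toContinuousLinearMap
    ((Module.finBasis ℂ V).coord i)).smulRight (f (Module.finBasis ℂ V i)) := by
  ext v
  simp only [FunLike.coe_sum, Finset.sum_apply, ContinuousLinearMap.smulRight_apply]
  conv_lhs => rw [← (Module.finBasis ℂ V).sum_repr v]
  rw [map_sum]
  refine Finset.sum_congr rfl fun i _ => ?_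
  rw [map_smul]
  rfl

theorem contDiffOn_clm_of_apply {n : WithTop ℕ∞} {f : E → V →L[ℂ] W} {s : Set E}
    (h : ∀ v, ContDiffOn ℝ n (fun x => f x v) s) : ContDiffOn ℝ n f s := by
  have h1 : f = fun x => ∑ i, (LinearMap.toContinuousLinearMap
      ((Module.finBasis ℂ V).coord i)).smulRight (f x (Module.finBasis ℂ V i)) := by
    funext x
    exact clm_eq_sum (f x)
  rw [h1]
  refine ContDiffOn.sum fun i _ => ?_
  have h2 : ContDiff ℝ n fun w : W => (LinearMap.toContinuousLinearMap
      ((Module.finBasis ℂ V).coord i)).smulRight w :=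
    (ContinuousLinearMap.smulRightL ℂ V W (LinearMap.toContinuousLinearMap
      ((Module.finBasis ℂ V).coord i))).contDiff.restrict_scalars ℝ
  exact h2.comp_contDiffOn (h _)

theorem contDiffAt_clm_of_apply {n : WithTop ℕ∞} {f : E → V →L[ℂ] W} {x : E}
    (h : ∀ v, ContDiffAt ℝ n (fun x => f x v) x) : ContDiffAt ℝ n f x := by
  rw [← contDiffWithinAt_univ]
  have h1 : f = fun x => ∑ i, (LinearMap.toContinuousLinearMap
      ((Module.finBasis ℂ V).coord i)).smulRight (f x (Module.finBasis ℂ V i)) := by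
    funext x
    exact clm_eq_sum (f x)
  rw [h1]
  refine ContDiffWithinAt.sum fun i _ => ?_
  have h2 : ContDiff ℝ n fun w : W => (LinearMap.toContinuousLinearMap
      ((Module.finBasis ℂ V).coord i)).smulRight w :=
    (ContinuousLinearMap.smulRightL ℂ V W (LinearMap.toContinuousLinearMap
      ((Module.finBasis ℂ V).coord i))).contDiff.restrict_scalars ℝ
  exact (h2.contDiffAt.comp x (h _)).contDiffWithinAt

omit [FiniteDimensional ℂ V] in
theorem contDiff_comp_clm {n : WithTop ℕ∞} :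
    ContDiff ℝ n fun p : (W →L[ℂ] Z) × (V →L[ℂ] W) => p.1.comp p.2 :=
  (isBoundedBilinearMap_comp (𝕜 := ℂ) (E := V) (F := W) (G := Z)).contDiff.restrict_scalars ℝ

omit [FiniteDimensional ℂ V] in
theorem contDiff_apply_clm {n : WithTop ℕ∞} :
    ContDiff ℝ n fun p : (V →L[ℂ] W) × V => p.1 p.2 :=
  (isBoundedBilinearMap_apply (𝕜 := ℂ) (E := V) (F := W)).contDiff.restrict_scalars ℝ

end clm

variable {X : Type*} [TopologicalSpace X] [ChartedSpace C2 X] {A : FinAt X}

theorem ov_self (a : Fin A.N) : A.ov a a = A.O a := by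
  ext z
  exact ⟨fun h => h.1, fun h => ⟨h, h.2⟩⟩

theorem mem_ov_tau {a b c : Fin A.N} {z : C2} (hz : z ∈ A.ov a b) :
    A.tau a b z ∈ A.ov b c ↔ z ∈ A.ov a c := by
  constructor
  · intro h
    refine ⟨hz.1, ?_⟩
    have := h.2
    rwa [FinAt.symm_tau hz] at this
  · intro h
    exact FinAt.tau_mem_ov hz h

theorem tau_injOn (a b : Fin A.N) : InjOn (A.tau a b) (A.ov a b) := by
  intro z hz w hw h
  rw [← FinAt.tau_tau hz, h, FinAt.tau_tau hw]

theorem image_ov (a b : Fin A.N) : A.tau a b '' A.ov a b = A.ov b a := by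
  ext w
  constructor
  · rintro ⟨z, hz, rfl⟩
    exact FinAt.tau_mem hz
  · intro hw
    exact ⟨A.tau b a w, FinAt.tau_mem hw, FinAt.tau_tau hw⟩

/-- the set of points of the chart `a` which correspond to points of `N` -/
def im (A : FinAt X) (a : Fin A.N) (N : Set X) : Set C2 := A.e a '' N

theorem isCompact_im {a : Fin A.N} {N : Set X} (hN : IsCompact N) (h : N ⊆ A.U a) :
    IsCompact (im A a N) :=
  hN.image_of_continuousOn ((A.e a).continuousOn.mono (h.trans (A.U_sub a)))

theorem im_sub {a : Fin A.N} {N : Set X} (h : N ⊆ A.U a) : im A a N ⊆ A.O a := by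
  rintro _ ⟨x, hx, rfl⟩
  exact FinAt.mem_O (h hx)

theorem mem_im_iff {a : Fin A.N} {N : Set X} (h : N ⊆ A.U a) {z : C2} :
    z ∈ im A a N ↔ z ∈ A.O a ∧ (A.e a).symm z ∈ N := by
  constructor
  · rintro ⟨x, hx, rfl⟩
    refine ⟨FinAt.mem_O (h hx), ?_⟩
    rw [(A.e a).left_inv (A.U_sub a (h hx))]
    exact hx
  · rintro ⟨h1, h2⟩
    exact ⟨_, h2, (A.e a).right_inv h1.1⟩

theorem K_sub (a : Fin A.N) : A.K a ⊆ A.O a := im_sub (A.rho_supp a)

theorem isCompact_K [CompactSpace X] (a : Fin A.N) : IsCompact (A.K a) :=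
  isCompact_im (isClosed_tsupport _).isCompact (A.rho_supp a)

theorem exists_chart (A : FinAt X) (x : X) : ∃ a, x ∈ tsupport (A.rho a) := by
  by_contra h
  push Not at h
  have h1 : ∀ a, A.rho a x = 0 := fun a => image_eq_zero_of_notMem_tsupport (h a)
  have h2 := A.rho_sum x
  simp [h1] at h2

theorem continuousOn_symm (a : Fin A.N) : ContinuousOn (A.e a).symm (A.O a) :=
  (A.e a).continuousOn_symm.mono fun _ hz => hz.1

section smooth

variable [IsManifold 𝓘(ℂ, C2) ω X]

theorem tau_contDiffOn (a b : Fin A.N) {n : WithTop ℕ∞} :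
    ContDiffOn ℂ n (A.tau a b) (A.ov a b) :=
  fun _ hz => (FinAt.tau_analyticAt hz).contDiffAt.contDiffWithinAt

theorem tau_contDiffAt_real {a b : Fin A.N} {n : WithTop ℕ∞} {z : C2} (hz : z ∈ A.ov a b) :
    ContDiffAt ℝ n (A.tau a b) z :=
  (FinAt.tau_analyticAt hz).contDiffAt.restrict_scalars ℝ

theorem tau_continuousOn (a b : Fin A.N) : ContinuousOn (A.tau a b) (A.ov a b) :=
  (tau_contDiffOn a b (n := 0)).continuousOn

end smooth

variable {V : Type} [NormedAddCommGroup V] [NormedSpace ℂ V]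

section sb

variable {S : SB A V}

theorem sb_inv {a b : Fin A.N} {z : C2} (hz : z ∈ A.ov a b) (v : V) :
    S.T b a (A.tau a b z) (S.T a b z v) = v := by
  rw [S.comp a b a z hz ⟨hz.1, hz.1.2⟩, S.self a z hz.1]

theorem sb_inv' {a b : Fin A.N} {z : C2} (hz : z ∈ A.ov a b) (v : V) :
    S.T a b z (S.T b a (A.tau a b z) v) = v := by
  have h := sb_inv (S := S) (FinAt.tau_mem hz) v
  rwa [FinAt.tau_tau hz] at h

theorem sb_contDiffOn [FiniteDimensional ℂ V] (S : SB A V) (a b : Fin A.N) :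
    ContDiffOn ℝ ∞ (S.T a b) (A.ov a b) :=
  contDiffOn_clm_of_apply (S.smooth a b)

theorem sec_smooth (u : S.Sec) (a : Fin A.N) : ContDiffOn ℝ ∞ (u.1 a) (A.O a) := u.2.1 a

theorem sec_off (u : S.Sec) {a : Fin A.N} {z : C2} (hz : z ∉ A.O a) : u.1 a z = 0 :=
  u.2.2.1 a z hz

theorem sec_compat (u : S.Sec) {a b : Fin A.N} {z : C2} (hz : z ∈ A.ov a b) :
    u.1 b (A.tau a b z) = S.T a b z (u.1 a z) := u.2.2.2 a b z hz

/-- two sections which agree in the chart `c` and at all points outside `U c` are equal -/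
theorem sec_ext {u v : S.Sec} (c : Fin A.N) (h1 : ∀ z ∈ A.O c, u.1 c z = v.1 c z)
    (h2 : ∀ b, ∀ z ∈ A.O b, (A.e b).symm z ∉ A.U c → u.1 b z = v.1 b z) : u = v := by
  apply Subtype.ext
  funext b z
  by_cases hz : z ∈ A.O b
  · by_cases hc : (A.e b).symm z ∈ A.U c
    · have hbc : z ∈ A.ov b c := ⟨hz, hc⟩
      have h3 := FinAt.tau_mem hbc
      have e1 := sec_compat u h3
      have e2 := sec_compat v h3
      rw [FinAt.tau_tau hbc] at e1 e2
      rw [e1, e2, h1 _ h3.1]
    · exact h2 b z hz hc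
  · rw [sec_off u hz, sec_off v hz]

end sb

end Vale.Agent.P267.H462
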