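import Vale.Agent.P267.H462.Gl

/-!
# P267 / H462: transport of a local operator to another chart
-/

set_option linter.unusedSectionVars false

open scoped Manifold ContDiff ComplexConjugate Matrix
open MeasureTheory Set Filter Topology Metric

noncomputable section

namespace Vale.Agent.P267.H462

open Vale.Agent.P267.FL Vale.Agent.P267.RR Vale.Agent.P267.H551
open Vale.Agent.P267.H667 (IsCutoff kc cst)
open Vale.Agent.P267.H433 (Tr ee dbv bmk nn)

variable {X : Type*} [TopologicalSpace X] [ChartedSpace C2 X] {A : FinAt X}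
  {V : Type} [NormedAddCommGroup V] [NormedSpace ℂ V]
  {W : Type} [NormedAddCommGroup W] [NormedSpace ℂ W]

open Classical in
/-- the kernel `k` of the chart `b`, transported to the chart `a` -/
def trK (S : SB A V) (S' : SB A W) (a b : Fin A.N) (k : C2 → C2 → (V →L[ℂ] W)) (z w : C2) :
    V →L[ℂ] W :=
  if w ∈ A.ov a b then
    ((‖(A.J a b w).det‖ ^ 2 : ℝ) : ℂ) • (S'.T b a (A.tau a b z)).comp
      ((k (A.tau a b z) (A.tau a b w)).comp (S.T a b w))
  else 0

theorem trK_of_mem (S : SB A V) (S' : SB A W) {a b : Fin A.N} (k : C2 → C2 → (V →L[ℂ] W)) (z : C2)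
    {w : C2} (hw : w ∈ A.ov a b) : trK S S' a b k z w =
      ((‖(A.J a b w).det‖ ^ 2 : ℝ) : ℂ) • (S'.T b a (A.tau a b z)).comp
      ((k (A.tau a b z) (A.tau a b w)).comp (S.T a b w)) := if_pos hw

theorem trK_of_notMem (S : SB A V) (S' : SB A W) {a b : Fin A.N} (k : C2 → C2 → (V →L[ℂ] W))
    (z : C2) {w : C2} (hw : w ∉ A.ov a b) : trK S S' a b k z w = 0 := if_neg hw

section

variable [T2Space X] [IsManifold 𝓘(ℂ, C2) ω X] {S : SB A V} {S' : SB A W}

theorem trK_apply_sec {a b : Fin A.N} {k : C2 → C2 → (V →L[ℂ] W)} (z : C2) (u : S.Sec) (w : C2) :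
    trK S S' a b k z w (u.1 a w) = (A.ov a b).indicator (fun w => ‖(A.J a b w).det‖ ^ 2 •
      S'.T b a (A.tau a b z) (k (A.tau a b z) (A.tau a b w) (u.1 b (A.tau a b w)))) w := by
  by_cases hw : w ∈ A.ov a b
  · rw [indicator_of_mem hw, trK_of_mem S S' k z hw, sec_compat u hw]
    simp only [smul_apply, ContinuousLinearMap.comp_apply]
    exact Complex.coe_smul _ _
  · rw [indicator_of_notMem hw, trK_of_notMem S S' k z hw]
    rfl

theorem ind_eq {a b : Fin A.N} {k : C2 → C2 → (V →L[ℂ] W)} {z : C2}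
    (hk : ∀ w, k (A.tau a b z) w ≠ 0 → w ∈ A.ov b a) (u : S.Sec) :
    (fun w => k (A.tau a b z) w (u.1 b w)) =
      (A.ov b a).indicator (fun w => k (A.tau a b z) w (u.1 b w)) := by
  funext w
  by_cases hw : w ∈ A.ov b a
  · rw [indicator_of_mem hw]
  · rw [indicator_of_notMem hw]
    have : k (A.tau a b z) w = 0 := by
      by_contra h
      exact hw (hk w h)
    rw [this]
    rfl

theorem trK_integrable {a b : Fin A.N} {k : C2 → C2 → (V →L[ℂ] W)} {z : C2}
    (hk : ∀ w, k (A.tau a b z) w ≠ 0 → w ∈ A.ov b a) (u : S.Sec)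
    (hi : Integrable fun w => k (A.tau a b z) w (u.1 b w)) :
    Integrable fun w => trK S S' a b k z w (u.1 a w) := by
  have h1 : IntegrableOn (fun w => S'.T b a (A.tau a b z) (k (A.tau a b z) w (u.1 b w)))
      (A.ov b a) := ((S'.T b a (A.tau a b z)).integrable_comp hi).integrableOn
  have h2 := (integrableOn_trans (A.he a) (A.he b) ((A.isOpen_U a).inter (A.isOpen_U b))
    (inter_subset_left.trans (A.U_sub a)) (inter_subset_right.trans (A.U_sub b))
    (fun w => S'.T b a (A.tau a b z) (k (A.tau a b z) w (u.1 b w)))).1 (by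
      have : (A.e b).target ∩ (A.e b).symm ⁻¹' (A.U a ∩ A.U b) = A.ov b a := by
        rw [FinAt.ov_eq, inter_comm (A.U a)]
      rw [this]
      exact h1)
  rw [← FinAt.ov_eq] at h2
  have h3 := h2.integrable_indicator (A.isOpen_ov a b).measurableSet
  refine h3.congr (Eventually.of_forall fun w => ?_)
  exact (trK_apply_sec z u w).symm

/-- **transport**: the value in the chart `a` of an operator given by a kernel in the chart `b` -/
theorem transport [CompleteSpace W] {a b : Fin A.N} {k : C2 → C2 → (V →L[ℂ] W)} {z : C2}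
    (hk : ∀ w, k (A.tau a b z) w ≠ 0 → w ∈ A.ov b a) (u : S.Sec)
    (hi : Integrable fun w => k (A.tau a b z) w (u.1 b w)) :
    S'.T b a (A.tau a b z) (∫ w, k (A.tau a b z) w (u.1 b w)) =
      ∫ w, trK S S' a b k z w (u.1 a w) := by
  rw [← (S'.T b a (A.tau a b z)).integral_comp_comm hi]
  have e1 : ∫ w, S'.T b a (A.tau a b z) (k (A.tau a b z) w (u.1 b w)) =
      ∫ w in A.ov b a, S'.T b a (A.tau a b z) (k (A.tau a b z) w (u.1 b w)) := by
    rw [← integral_indicator (A.isOpen_ov b a).measurableSet]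
    congr 1
    funext w
    by_cases hw : w ∈ A.ov b a
    · rw [indicator_of_mem hw]
    · rw [indicator_of_notMem hw]
      have : k (A.tau a b z) w = 0 := by
        by_contra h
        exact hw (hk w h)
      rw [this]
      simp
  rw [e1, integral_ov a b, ← integral_indicator (A.isOpen_ov a b).measurableSet]
  congr 1
  funext w
  rw [trK_apply_sec]

/-- the value in the chart `a` of a local operator of the chart `b` -/
theorem LO_transport [FiniteDimensional ℂ W] {a b : Fin A.N} {m : ℕ} (hm : m < 4)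
    {k : C2 → C2 → (V →L[ℂ] W)} (h : LKer A b m k) {z : C2} (hz : z ∈ A.ov a b)
    (hk : ∀ w, k (A.tau a b z) w ≠ 0 → w ∈ A.ov b a) (u : S.Sec) :
    (LO S S' b hm h u).1 a z = ∫ w, trK S S' a b k z w (u.1 a w) := by
  have : CompleteSpace W := FiniteDimensional.complete ℂ W
  rw [LO_val, extz_of_mem S' _ hz]
  exact transport hk u (h.integrable hm (sec_smooth u b) _)

end

/-! ### the Jacobian matrix in the notation of helper433 -/

section jac

variable [IsManifold 𝓘(ℂ, C2) ω X] {r : ℕ} (B : Bun A r)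

theorem fderiv_tau {a b : Fin A.N} {w : C2} (hw : w ∈ A.ov a b) (j p : Fin 2) :
    fderiv ℂ (A.tau a b) w (ee j) p = A.J a b w p j := by
  have h := jacM_apply (A.he a) (A.he b) (FinAt.symm_mem_source hw.1)
    (FinAt.symm_mem_source' hw) p j
  rw [(A.e a).right_inv hw.1.1] at h
  exact h.symm

theorem TT_df {a b : Fin A.N} {w : C2} (hw : w ∈ A.ov a b) (i k : Fin 2) :
    (TT B a b).df i k w = A.J a b w i k := fderiv_tau hw k i

theorem TT_jac {a b : Fin A.N} {w : C2} (hw : w ∈ A.ov a b) :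
    (TT B a b).jac w = (A.J a b w).det := by
  rw [Tr.jac, TT_df B hw, TT_df B hw, TT_df B hw, TT_df B hw, Matrix.det_fin_two]

theorem norm_det_mul_det_Cm {a b : Fin A.N} {w : C2} (hw : w ∈ A.ov a b) :
    ((‖(A.J a b w).det‖ ^ 2 : ℝ) : ℂ) * (Bun.Cm A a b w).det = (A.J a b w).det := by
  have h := Bun.det_Cm hw
  rw [← Complex.normSq_eq_norm_sq, ← Complex.mul_conj]
  linear_combination (A.J a b w).det * h

/-- `|det J|² conj(J⁻¹) = det J conj(adj J)` -/
theorem norm_det_mul_Cm {a b : Fin A.N} {w : C2} (hw : w ∈ A.ov a b) (i j : Fin 2) :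
    ((‖(A.J a b w).det‖ ^ 2 : ℝ) : ℂ) * Bun.Cm A a b w i j =
      (A.J a b w).det * conj ((A.J a b w).adjugate i j) := by
  have h := Bun.det_Cm hw
  have h1 : (A.J a b w).adjugate = (A.J a b w).det • A.J b a (A.tau a b w) := by
    have e := FinAt.J_mul_inv' hw
    have e2 : A.J b a (A.tau a b w) * (A.J a b w * (A.J a b w).adjugate) =
        (A.J a b w).adjugate := by
      rw [← Matrix.mul_assoc, e, Matrix.one_mul]
    rw [Matrix.mul_adjugate, Matrix.mul_smul, Matrix.mul_one] at e2
    exact e2.symm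
  rw [h1, ← Complex.normSq_eq_norm_sq, ← Complex.mul_conj, Matrix.smul_apply, smul_eq_mul, map_mul]
  simp only [Bun.Cm, Matrix.map_apply]
  ring

end jac

end Vale.Agent.P267.H462
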